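import Mathlib

open Set

namespace Vale.Agent.P227

theorem exp_third {x : ℝ} (hx : |x| ≤ 1) :
    |Real.exp x - (1 + x + x ^ 2 / 2)| ≤ |x| ^ 3 * (2 / 9) := by
  have := Real.exp_bound hx (n := 3) (by norm_num)
  simp only [Finset.sum_range_succ, Finset.sum_range_zero, Nat.factorial] at this
  norm_num at this
  calc |Real.exp x - (1 + x + x ^ 2 / 2)| ≤ |x| ^ 3 * (4 / (6 * 3)) := by
        refine le_trans (le_of_eq ?_) (this.trans (le_of_eq ?_))
        · rfl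
        · norm_num
    _ = _ := by norm_num

set_option maxHeartbeats 2000000 in
theorem calc7 {ι : Type} [Fintype ι] {w x : ι → ℝ} (hw : ∀ i, 0 ≤ w i) (hw1 : ∑ i, w i = 1)
    {η : ℝ} (hη0 : 0 ≤ η) (hη : η ≤ 1 / 4) (hx : ∀ i, |x i| ≤ η) :
    2 * (∑ i, w i * Real.exp (x i)) ^ 2 - ∑ i, w i * Real.exp (x i) ^ 2 ≤
      Real.exp (2 * ∑ i, w i * x i + 18 * η ^ 3) := by
  set a := ∑ i, w i * x i with ha
  set b := ∑ i, w i * x i ^ 2 with hb
  have habs : |a| ≤ η := by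
    calc |a| ≤ ∑ i, |w i * x i| := Finset.abs_sum_le_sum_abs _ _
      _ ≤ ∑ i, w i * η := Finset.sum_le_sum fun i _ => by
          rw [abs_mul, abs_of_nonneg (hw i)]; exact mul_le_mul_of_nonneg_left (hx i) (hw i)
      _ = η := by rw [← Finset.sum_mul, hw1, one_mul]
  have hb0 : 0 ≤ b := Finset.sum_nonneg fun i _ => mul_nonneg (hw i) (sq_nonneg _)
  have hb1 : b ≤ η ^ 2 := by
    calc b ≤ ∑ i, w i * η ^ 2 := Finset.sum_le_sum fun i _ =>
          mul_le_mul_of_nonneg_left (by rw [← sq_abs]; exact pow_le_pow_left₀ (abs_nonneg _) (hx i) 2)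
            (hw i)
      _ = η ^ 2 := by rw [← Finset.sum_mul, hw1, one_mul]
  set m := ∑ i, w i * Real.exp (x i) with hm
  set R := m - (1 + a + b / 2) with hR
  have hRb : |R| ≤ η ^ 3 / 4 := by
    have e : R = ∑ i, w i * (Real.exp (x i) - (1 + x i + x i ^ 2 / 2)) := by
      have e1 : ∀ i, w i * (Real.exp (x i) - (1 + x i + x i ^ 2 / 2)) =
          w i * Real.exp (x i) - (w i + w i * x i + w i * x i ^ 2 / 2) := fun i => by ring
      simp only [e1]
      rw [Finset.sum_sub_distrib, Finset.sum_add_distrib, Finset.sum_add_distrib,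
        ← Finset.sum_div, hw1]
    rw [e]
    calc |∑ i, w i * (Real.exp (x i) - (1 + x i + x i ^ 2 / 2))|
        ≤ ∑ i, |w i * (Real.exp (x i) - (1 + x i + x i ^ 2 / 2))| := Finset.abs_sum_le_sum_abs _ _
      _ ≤ ∑ i, w i * (η ^ 3 / 4) := Finset.sum_le_sum fun i _ => by
          rw [abs_mul, abs_of_nonneg (hw i)]
          refine mul_le_mul_of_nonneg_left ?_ (hw i)
          have h1 := exp_third (x := x i) ((hx i).trans (by linarith))
          have h2 : |x i| ^ 3 ≤ η ^ 3 := pow_le_pow_left₀ (abs_nonneg _) (hx i) 3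
          have h3 : 0 ≤ η ^ 3 := by positivity
          linarith
      _ = η ^ 3 / 4 := by rw [← Finset.sum_mul, hw1, one_mul]
  set m2 := ∑ i, w i * Real.exp (x i) ^ 2 with hm2
  set R2 := m2 - (1 + 2 * a + 2 * b) with hR2
  have hR2b : |R2| ≤ 2 * η ^ 3 := by
    have e : R2 = ∑ i, w i * (Real.exp (2 * x i) - (1 + 2 * x i + (2 * x i) ^ 2 / 2)) := by
      have e1 : ∀ i, w i * (Real.exp (2 * x i) - (1 + 2 * x i + (2 * x i) ^ 2 / 2)) =
          w i * Real.exp (x i) ^ 2 - (w i + 2 * (w i * x i) + 2 * (w i * x i ^ 2)) := fun i => by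
        rw [← Real.exp_nat_mul]; push_cast; ring
      simp only [e1]
      rw [Finset.sum_sub_distrib, Finset.sum_add_distrib, Finset.sum_add_distrib,
        ← Finset.mul_sum, ← Finset.mul_sum, hw1]
    rw [e]
    calc |∑ i, w i * (Real.exp (2 * x i) - (1 + 2 * x i + (2 * x i) ^ 2 / 2))|
        ≤ ∑ i, |w i * (Real.exp (2 * x i) - (1 + 2 * x i + (2 * x i) ^ 2 / 2))| :=
          Finset.abs_sum_le_sum_abs _ _
      _ ≤ ∑ i, w i * (2 * η ^ 3) := Finset.sum_le_sum fun i _ => by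
          rw [abs_mul, abs_of_nonneg (hw i)]
          refine mul_le_mul_of_nonneg_left ?_ (hw i)
          have h0 : |2 * x i| = 2 * |x i| := by rw [abs_mul]; norm_num
          have h1 := exp_third (x := 2 * x i) (by rw [h0]; linarith [hx i])
          rw [h0] at h1
          have h2 : |x i| ^ 3 ≤ η ^ 3 := pow_le_pow_left₀ (abs_nonneg _) (hx i) 3
          have h3 : 0 ≤ η ^ 3 := by positivity
          have h4 : (2 * |x i|) ^ 3 = 8 * |x i| ^ 3 := by ring
          rw [h4] at h1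
          linarith
      _ = 2 * η ^ 3 := by rw [← Finset.sum_mul, hw1, one_mul]
  have hme : m = 1 + a + b / 2 + R := by rw [hR]; ring
  have hm2e : m2 = 1 + 2 * a + 2 * b + R2 := by rw [hR2]; ring
  clear_value a b m m2 R R2
  obtain ⟨hR1, hR1'⟩ := abs_le.1 hRb
  obtain ⟨hR3, hR3'⟩ := abs_le.1 hR2b
  obtain ⟨ha1, ha2⟩ := abs_le.1 habs
  have hη3 : 0 ≤ η ^ 3 := by positivity
  have hη4 : η ^ 4 ≤ η ^ 3 / 4 := by
    have : η ^ 4 = η ^ 3 * η := by ring
    rw [this]; nlinarith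
  have hu : (a + b / 2 + R) ^ 2 ≤ a ^ 2 + 2 * η ^ 3 := by
    have hc : |b / 2 + R| ≤ η ^ 2 * (5 / 8) := by
      rw [abs_le]
      have : η ^ 3 ≤ η ^ 2 / 4 := by
        have : η ^ 3 = η ^ 2 * η := by ring
        rw [this]; nlinarith [sq_nonneg η]
      constructor <;> nlinarith
    have h1 : (a + b / 2 + R) ^ 2 = a ^ 2 + 2 * (a * (b / 2 + R)) + (b / 2 + R) ^ 2 := by ring
    have h2 : a * (b / 2 + R) ≤ η * (η ^ 2 * (5 / 8)) := by
      calc a * (b / 2 + R) ≤ |a * (b / 2 + R)| := le_abs_self _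
        _ = |a| * |b / 2 + R| := abs_mul _ _
        _ ≤ η * (η ^ 2 * (5 / 8)) := mul_le_mul habs hc (abs_nonneg _) hη0
    have h3 : (b / 2 + R) ^ 2 ≤ (η ^ 2 * (5 / 8)) ^ 2 := by
      rw [← sq_abs]; exact pow_le_pow_left₀ (abs_nonneg _) hc 2
    rw [h1]
    nlinarith
  have hF : 2 * m ^ 2 - m2 ≤ 1 + 2 * a + 2 * a ^ 2 + 7 * η ^ 3 := by
    rw [hme, hm2e]
    nlinarith
  have h0 : |2 * a| = 2 * |a| := by rw [abs_mul, abs_two]
  have hexp := exp_third (x := 2 * a) (by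
    rw [h0]; linarith)
  have hea : 1 + 2 * a + 2 * a ^ 2 - 2 * η ^ 3 ≤ Real.exp (2 * a) := by
    rw [h0] at hexp
    have h2 : |a| ^ 3 ≤ η ^ 3 := pow_le_pow_left₀ (abs_nonneg _) habs 3
    have h3 := (abs_le.1 hexp).1
    nlinarith
  have he2 : (1 : ℝ) / 2 ≤ Real.exp (2 * a) := by
    have := Real.add_one_le_exp (2 * a)
    linarith
  rw [Real.exp_add]
  have h18 : 1 + 18 * η ^ 3 ≤ Real.exp (18 * η ^ 3) := by
    have := Real.add_one_le_exp (18 * η ^ 3)
    linarith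
  calc 2 * m ^ 2 - m2 ≤ Real.exp (2 * a) + 9 * η ^ 3 := by linarith
    _ ≤ Real.exp (2 * a) * (1 + 18 * η ^ 3) := by nlinarith
    _ ≤ Real.exp (2 * a) * Real.exp (18 * η ^ 3) :=
        mul_le_mul_of_nonneg_left h18 (Real.exp_pos _).le

theorem mono7 {ι : Type} [Fintype ι] {w t τ : ι → ℝ} (hw : ∀ i, 0 ≤ w i) (hw1 : ∑ i, w i = 1)
    {l u : ℝ} (hul : u ≤ 2 * l)
    (ht : ∀ i, 0 < w i → l ≤ t i ∧ t i ≤ τ i ∧ τ i ≤ u) :
    2 * (∑ i, w i * t i) ^ 2 - ∑ i, w i * t i ^ 2 ≤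
      2 * (∑ i, w i * τ i) ^ 2 - ∑ i, w i * τ i ^ 2 := by
  set m := ∑ i, w i * t i with hm
  set M := ∑ i, w i * τ i with hM
  have hwl : ∀ (f g : ι → ℝ), (∀ i, 0 < w i → f i ≤ g i) → ∑ i, w i * f i ≤ ∑ i, w i * g i := by
    intro f g hfg
    refine Finset.sum_le_sum fun i _ => ?_
    rcases (hw i).lt_or_eq with h | h
    · exact mul_le_mul_of_nonneg_left (hfg i h) h.le
    · rw [← h]; simp
  have hml : l ≤ m := by
    have := hwl (fun _ => l) t (fun i hi => (ht i hi).1)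
    rwa [← Finset.sum_mul, hw1, one_mul] at this
  have hMl : l ≤ M := by
    have := hwl (fun _ => l) τ (fun i hi => (ht i hi).1.trans (ht i hi).2.1)
    rwa [← Finset.sum_mul, hw1, one_mul] at this
  have h1 : ∑ i, w i * ((τ i - t i) * (τ i + t i)) ≤ ∑ i, w i * ((τ i - t i) * (2 * (M + m))) := by
    refine hwl _ _ fun i hi => ?_
    obtain ⟨h1, h2, h3⟩ := ht i hi
    refine mul_le_mul_of_nonneg_left ?_ (by linarith)
    linarith
  have h2 : ∑ i, w i * ((τ i - t i) * (2 * (M + m))) = (M - m) * (2 * (M + m)) := by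
    have : ∀ i, w i * ((τ i - t i) * (2 * (M + m))) =
        (w i * τ i - w i * t i) * (2 * (M + m)) := fun i => by ring
    simp only [this]
    rw [← Finset.sum_mul, Finset.sum_sub_distrib]
  have h3 : ∑ i, w i * ((τ i - t i) * (τ i + t i)) = ∑ i, w i * τ i ^ 2 - ∑ i, w i * t i ^ 2 := by
    rw [← Finset.sum_sub_distrib]
    exact Finset.sum_congr rfl fun i _ => by ring
  rw [h2, h3] at h1
  nlinarith

theorem concave_of_cubic {f c : ℝ → ℝ} {C δ : ℝ} (hδ : 0 < δ) (hf : Continuous f)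
    (h : ∀ τ σ, |σ - τ| ≤ δ → f σ ≤ f τ + c τ * (σ - τ) + C * |σ - τ| ^ 3)
    {lam : ℝ} (h0 : 0 ≤ lam) (h1 : lam ≤ 1) : (1 - lam) * f 0 + lam * f 1 ≤ f lam := by
  by_contra hcon
  push Not at hcon
  set D := (1 - lam) * f 0 + lam * f 1 - f lam with hD
  have hDpos : 0 < D := by linarith
  set Ψ : ℝ → ℝ := fun τ => f τ - (1 - τ) * f 0 - τ * f 1 + D * (τ * (1 - τ)) with hΨ
  have hΨc : Continuous Ψ := by fun_prop
  obtain ⟨τ, hτ, hmin⟩ := isCompact_Icc.exists_isMinOn (s := Icc (0 : ℝ) 1) ⟨0, by simp⟩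
    hΨc.continuousOn
  have hΨl : Ψ lam < 0 := by
    have : Ψ lam = - D + D * (lam * (1 - lam)) := by simp only [hΨ, hD]; ring
    rw [this]
    have : lam * (1 - lam) ≤ 1 / 4 := by nlinarith [sq_nonneg (lam - 1 / 2)]
    nlinarith
  have hΨτ : Ψ τ < 0 := lt_of_le_of_lt (hmin ⟨h0, h1⟩) hΨl
  have hΨ0 : Ψ 0 = 0 := by simp [hΨ]
  have hΨ1 : Ψ 1 = 0 := by simp [hΨ]
  have hτ0 : 0 < τ := by
    rcases hτ.1.lt_or_eq with h | h
    · exact h
    · rw [← h, hΨ0] at hΨτ; exact absurd hΨτ (lt_irrefl _)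
  have hτ1 : τ < 1 := by
    rcases hτ.2.lt_or_eq with h | h
    · exact h
    · rw [h, hΨ1] at hΨτ; exact absurd hΨτ (lt_irrefl _)
  have key : ∀ ε : ℝ, 0 < ε → ε ≤ δ → ε ≤ τ → ε ≤ 1 - τ → D ≤ |C| * ε := by
    intro ε hε hεδ hετ hε1
    have m1 : Ψ τ ≤ Ψ (τ + ε) := hmin ⟨by linarith, by linarith⟩
    have m2 : Ψ τ ≤ Ψ (τ - ε) := hmin ⟨by linarith, by linarith⟩
    have f1 := h τ (τ + ε) (by simpa [abs_of_pos hε] using hεδ)
    have f2 := h τ (τ - ε) (by simpa [abs_of_pos hε] using hεδ)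
    have a1 : |τ + ε - τ| = ε := by simp [abs_of_pos hε]
    have a2 : |τ - ε - τ| = ε := by simp [abs_of_pos hε]
    rw [a1] at f1
    rw [a2] at f2
    have hs : f (τ + ε) + f (τ - ε) ≤ 2 * f τ + 2 * C * ε ^ 3 := by nlinarith
    have hs2 : 2 * D * ε ^ 2 ≤ f (τ + ε) + f (τ - ε) - 2 * f τ := by
      simp only [hΨ] at m1 m2
      nlinarith
    have hC : C * ε ^ 3 ≤ |C| * ε ^ 3 := mul_le_mul_of_nonneg_right (le_abs_self _) (by positivity)
    have h5 : ε ^ 2 * D ≤ ε ^ 2 * (|C| * ε) := by nlinarith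
    exact le_of_mul_le_mul_left h5 (by positivity)
  set e0 := min (min δ τ) (min (1 - τ) (D / (2 * (|C| + 1)))) with he0
  have hCp : 0 < |C| + 1 := by positivity
  have he0pos : 0 < e0 := by
    refine lt_min (lt_min hδ hτ0) (lt_min (by linarith) (by positivity))
  have k := key e0 he0pos ((min_le_left _ _).trans (min_le_left _ _))
    ((min_le_left _ _).trans (min_le_right _ _)) ((min_le_right _ _).trans (min_le_left _ _))
  have k2 : e0 ≤ D / (2 * (|C| + 1)) := (min_le_right _ _).trans (min_le_right _ _)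
  have k3 : |C| * e0 ≤ |C| * (D / (2 * (|C| + 1))) := mul_le_mul_of_nonneg_left k2 (abs_nonneg _)
  have k4 : |C| * (D / (2 * (|C| + 1))) ≤ D / 2 := by
    have : |C| * (D / (2 * (|C| + 1))) = (D / 2) * (|C| / (|C| + 1)) := by
      field_simp
    rw [this]
    have h7 : |C| / (|C| + 1) ≤ 1 := by
      rw [div_le_one hCp]; linarith
    nlinarith
  linarith

end Vale.Agent.P227
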