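import Vale.Agent.P227.Lift
import Vale.Agent.P227.Defs

open MeasureTheory Set Pointwise
open scoped ENNReal

namespace Vale.Agent.P227

theorem flipInv_of_single {F : Type*} [NormedAddCommGroup F] [NormedSpace ℝ F] {k : ℕ}
    {K : Set ((Fin k → ℝ) × F)}
    (h : ∀ j, ∀ p ∈ K, (Function.update p.1 j (-(p.1 j)), p.2) ∈ K) : FlipInv K := by
  classical
  have main : ∀ S : Finset (Fin k), ∀ p ∈ K,
      ((fun j => if j ∈ S then -(p.1 j) else p.1 j), p.2) ∈ K := by
    intro S
    induction S using Finset.induction_on with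
    | empty => intro p hp; simpa using hp
    | insert i S hi ih =>
      intro p hp
      have h1 := h i _ (ih p hp)
      simp only [hi, if_false] at h1
      convert h1 using 2
      funext j
      by_cases hj : j = i
      · subst hj; simp [hi]
      · simp [hj]
  intro ε hε p hp
  rw [flipMap_apply]
  have := main (Finset.univ.filter fun j => ε j = -1) p hp
  convert this using 2
  funext j
  rcases hε j with h1 | h1
  · have : ¬ ((1 : ℝ) = -1) := by norm_num
    simp [h1, this]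
  · simp [h1]

section transfer
variable {E E' : Type*} [NormedAddCommGroup E] [NormedSpace ℝ E] [NormedAddCommGroup E']
  [NormedSpace ℝ E']

theorem spt_image (T : E ≃L[ℝ] E') (K : Set E) (f : E →L[ℝ] ℝ) :
    spt (T '' K) (f.comp (T.symm : E' →L[ℝ] E)) = spt K f := by
  have : (f.comp (T.symm : E' →L[ℝ] E)) '' (T '' K) = f '' K := by
    ext y
    constructor
    · rintro ⟨_, ⟨x, hx, rfl⟩, rfl⟩; exact ⟨x, hx, by simp⟩
    · rintro ⟨x, hx, rfl⟩; exact ⟨T x, ⟨x, hx, rfl⟩, by simp⟩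
  rw [spt, spt, this]

theorem lcomb_image (T : E ≃L[ℝ] E') (K L : Set E) (lam : ℝ) :
    lcomb (T '' K) (T '' L) lam ⊆ T '' lcomb K L lam := by
  intro x hx
  refine ⟨T.symm x, fun f => ?_, by simp⟩
  have := hx (f.comp (T.symm : E' →L[ℝ] E))
  rw [spt_image, spt_image] at this
  exact this

end transfer

theorem lcomb_subset_logComb {n : ℕ} (K L : Set (EuclideanSpace ℝ (Fin n))) (lam : ℝ) :
    lcomb K L lam ⊆ logComb K L lam := by
  intro x hx u _
  have h := hx (innerSL ℝ u)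
  have e : ∀ K : Set (EuclideanSpace ℝ (Fin n)), spt K (innerSL ℝ u) = supportFn K u := by
    intro K
    rw [spt, supportFn]
    congr 1
    ext y
    simp only [mem_image, innerSL_apply_apply]
    constructor
    · rintro ⟨x, hx, rfl⟩; exact ⟨x, hx, real_inner_comm _ _⟩
    · rintro ⟨x, hx, rfl⟩; exact ⟨x, hx, real_inner_comm _ _⟩
  rw [e, e, innerSL_apply_apply, real_inner_comm] at h
  exact h

theorem subset_logComb_zero {n : ℕ} {K L : Set (EuclideanSpace ℝ (Fin n))} (hK : IsCompact K) :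
    K ⊆ logComb K L 0 := by
  intro x hx u _
  simp only [sub_zero, Real.rpow_one, Real.rpow_zero, mul_one]
  refine le_csSup ?_ ⟨x, hx, rfl⟩
  exact (hK.image (by fun_prop)).bddAbove

theorem subset_logComb_one {n : ℕ} {K L : Set (EuclideanSpace ℝ (Fin n))} (hL : IsCompact L) :
    L ⊆ logComb K L 1 := by
  intro x hx u _
  simp only [sub_self, Real.rpow_one, Real.rpow_zero, one_mul]
  refine le_csSup ?_ ⟨x, hx, rfl⟩
  exact (hL.image (by fun_prop)).bddAbove

theorem exists_equiv_split {n : ℕ} (h2 : 2 ≤ n) (J : Finset (Fin n)) (hJ : n ≤ J.card + 2) :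
    ∃ e : Fin n ≃ Fin (n - 2) ⊕ Fin 2, ∀ j : Fin (n - 2), e.symm (Sum.inl j) ∈ J := by
  classical
  obtain ⟨J', hJ'J, hJ'c⟩ := Finset.exists_subset_card_eq (s := J) (n := n - 2) (by omega)
  have e1 : {x // x ∈ J'} ≃ Fin (n - 2) := J'.equivFinOfCardEq hJ'c
  have hc : (J'ᶜ).card = 2 := by
    rw [Finset.card_compl, Fintype.card_fin, hJ'c]; omega
  have e2 : {x // x ∈ J'ᶜ} ≃ Fin 2 := (J'ᶜ).equivFinOfCardEq hc
  have e3 : {x // ¬ x ∈ J'} ≃ {x // x ∈ J'ᶜ} :=
    Equiv.subtypeEquivRight fun x => by simp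
  refine ⟨(Equiv.sumCompl (fun x => x ∈ J')).symm.trans
    (Equiv.sumCongr e1 (e3.trans e2)), fun j => ?_⟩
  simp only [Equiv.symm_trans_apply, Equiv.sumCongr_symm, Equiv.sumCongr_apply, Sum.map_inl,
    Equiv.symm_symm, Equiv.sumCompl_apply_inl]
  exact hJ'J (e1.symm j).2

theorem main {n : ℕ} (h2 : 2 ≤ n) (b : Module.Basis (Fin n) ℝ (EuclideanSpace ℝ (Fin n)))
    (J : Finset (Fin n)) (hJ : n ≤ J.card + 2) {K L : Set (EuclideanSpace ℝ (Fin n))}
    (hK : IsSymmBody K) (hL : IsSymmBody L)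
    (hKJ : ∀ i ∈ J, ∀ x ∈ K, basisReflection b i x ∈ K)
    (hLJ : ∀ i ∈ J, ∀ x ∈ L, basisReflection b i x ∈ L)
    {lam : ℝ} (h0 : 0 ≤ lam) (h1 : lam ≤ 1) :
    volume K ^ (1 - lam) * volume L ^ lam ≤ volume (logComb K L lam) := by
  classical
  obtain ⟨hKcp, hKc, -, hKs⟩ := hK
  obtain ⟨hLcp, hLc, -, hLs⟩ := hL
  rcases h0.eq_or_lt with rfl | h0
  · simp only [sub_zero, ENNReal.rpow_one, ENNReal.rpow_zero, mul_one]
    exact measure_mono (subset_logComb_zero hKcp)
  rcases h1.eq_or_lt with rfl | h1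
  · simp only [sub_self, ENNReal.rpow_one, ENNReal.rpow_zero, one_mul]
    exact measure_mono (subset_logComb_one hLcp)
  have h1' : 0 < 1 - lam := by linarith
  refine le_trans ?_ (measure_mono (lcomb_subset_logComb K L lam))
  obtain ⟨e, he⟩ := exists_equiv_split h2 J hJ
  set T0 : EuclideanSpace ℝ (Fin n) ≃ₗ[ℝ] ((Fin (n - 2) → ℝ) × (ℝ × ℝ)) :=
    b.equivFun.trans ((LinearEquiv.funCongrLeft ℝ ℝ e.symm).trans
      ((LinearEquiv.sumArrowLequivProdArrow (Fin (n - 2)) (Fin 2) ℝ ℝ).trans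
        (LinearEquiv.prodCongr (LinearEquiv.refl ℝ _) (LinearEquiv.finTwoArrow ℝ ℝ)))) with hT0
  have hT01 : ∀ x j, (T0 x).1 j = b.repr x (e.symm (Sum.inl j)) := by
    intro x j; rfl
  have hT02 : ∀ x, (T0 x).2 = (b.repr x (e.symm (Sum.inr 0)), b.repr x (e.symm (Sum.inr 1))) := by
    intro x; rfl
  set T : EuclideanSpace ℝ (Fin n) ≃L[ℝ] ((Fin (n - 2) → ℝ) × (ℝ × ℝ)) :=
    T0.toContinuousLinearEquiv with hT
  have hTx : ∀ x, T x = T0 x := fun x => rfl
  have hflip : ∀ {K : Set (EuclideanSpace ℝ (Fin n))},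
      (∀ i ∈ J, ∀ x ∈ K, basisReflection b i x ∈ K) → FlipInv (T '' K) := by
    intro K hKJ
    apply flipInv_of_single
    rintro j _ ⟨x, hx, rfl⟩
    refine ⟨basisReflection b (e.symm (Sum.inl j)) x, hKJ _ (he j) x hx, ?_⟩
    rw [hTx, hTx]
    have hrepr : ∀ m, b.repr (basisReflection b (e.symm (Sum.inl j)) x) m =
        if m = e.symm (Sum.inl j) then -(b.repr x m) else b.repr x m := by
      intro m
      simp only [basisReflection, map_sub, map_smul, Finsupp.coe_sub, Finsupp.coe_smul,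
        Pi.sub_apply, Pi.smul_apply, Module.Basis.repr_self, smul_eq_mul]
      by_cases hm : m = e.symm (Sum.inl j)
      · rw [hm]; simp; ring
      · rw [Finsupp.single_eq_of_ne hm]
        simp [hm]
    apply Prod.ext
    · funext i
      simp only
      rw [hT01, hrepr]
      by_cases hij : i = j
      · subst hij; simp [hT01]
      · have : ¬ (e.symm (Sum.inl i) = e.symm (Sum.inl j)) := by
          intro hh
          exact hij (Sum.inl_injective (e.symm.injective hh))
        simp [this, Function.update_of_ne hij, hT01]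
    · simp only
      rw [hT02, hT02, hrepr, hrepr]
      simp
  have hsymm : ∀ {K : Set (EuclideanSpace ℝ (Fin n))}, (∀ x ∈ K, -x ∈ K) →
      ∀ x ∈ T '' K, -x ∈ T '' K := by
    rintro K hKs _ ⟨x, hx, rfl⟩
    exact ⟨-x, hKs x hx, by simp⟩
  have hconv : ∀ {K : Set (EuclideanSpace ℝ (Fin n))}, Convex ℝ K → Convex ℝ (T '' K) := by
    intro K hK
    exact hK.linear_image (T : EuclideanSpace ℝ (Fin n) →ₗ[ℝ] ((Fin (n - 2) → ℝ) × (ℝ × ℝ)))
  have key := lift_lbm (F := ℝ × ℝ) h0 h1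
    (fun K L hK hL _ _ hKs hLs => planar_lbm hK hL hKs hLs h0 h1)
    (K := T '' K) (L := T '' L) (hKcp.image T.continuous) (hLcp.image T.continuous)
    (hconv hKc) (hconv hLc) (hsymm hKs) (hsymm hLs) (hflip hKJ) (hflip hLJ)
  have hH0 : (volume : Measure ((Fin (n - 2) → ℝ) × (ℝ × ℝ))).IsAddHaarMeasure :=
    Measure.prod.instIsAddHaarMeasure (volume : Measure (Fin (n - 2) → ℝ))
      (volume : Measure (ℝ × ℝ))
  have hHaar : (Measure.map T (volume : Measure (EuclideanSpace ℝ (Fin n)))).IsAddHaarMeasure :=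
    T.isAddHaarMeasure_map _
  obtain ⟨c, hc0, hct, hc⟩ : ∃ c : ℝ≥0∞, c ≠ 0 ∧ c ≠ ∞ ∧
      Measure.map T (volume : Measure (EuclideanSpace ℝ (Fin n))) =
        c • (volume : Measure ((Fin (n - 2) → ℝ) × (ℝ × ℝ))) := by
    refine ⟨(Measure.addHaarScalarFactor (Measure.map T volume) volume : NNReal), ?_,
      ENNReal.coe_ne_top, ?_⟩
    · exact_mod_cast (Measure.addHaarScalarFactor_pos_of_isAddHaarMeasure _ _).ne'
    · exact Measure.isAddLeftInvariant_eq_smul _ _
  have hvol : ∀ S : Set (EuclideanSpace ℝ (Fin n)), volume S = c * volume (T '' S) := by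
    intro S
    have h5 : (Measure.map T (volume : Measure (EuclideanSpace ℝ (Fin n)))) (T '' S) =
        volume S := by
      change (Measure.map T.toHomeomorph.toMeasurableEquiv
        (volume : Measure (EuclideanSpace ℝ (Fin n)))) (T '' S) = volume S
      rw [T.toHomeomorph.toMeasurableEquiv.map_apply]
      congr 1
      exact T.injective.preimage_image S
    rw [← h5, hc]; rfl
  rw [hvol K, hvol L, hvol (lcomb K L lam), ENNReal.mul_rpow_of_nonneg _ _ h1'.le,
    ENNReal.mul_rpow_of_nonneg _ _ h0.le]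
  have e9 : c ^ (1 - lam) * c ^ lam = c := by
    rw [← ENNReal.rpow_add _ _ hc0 hct]; simp
  calc _ = (c ^ (1 - lam) * c ^ lam) * (volume (T '' K) ^ (1 - lam) * volume (T '' L) ^ lam) := by
        ring
    _ ≤ c * volume (T '' lcomb K L lam) := by
        rw [e9]
        exact mul_le_mul' le_rfl (key.trans (measure_mono (lcomb_image T K L lam)))

end Vale.Agent.P227
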