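import Vale.Agent.P227.Planar5

open MeasureTheory Set Pointwise
open scoped ENNReal

namespace Vale.Agent.P227

section Defs
variable {E : Type*} [NormedAddCommGroup E] [NormedSpace ℝ E]

/-- support function on the dual -/
noncomputable def spt (K : Set E) (f : E →L[ℝ] ℝ) : ℝ := sSup (f '' K)

/-- logarithmic combination -/
def lcomb (K L : Set E) (lam : ℝ) : Set E :=
  {x | ∀ f : E →L[ℝ] ℝ, f x ≤ spt K f ^ (1 - lam) * spt L f ^ lam}

theorem spt_cont {K : Set E} (hK : IsCompact K) : Continuous (spt K) := by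
  have := hK.continuous_sSup (f := fun (g : E →L[ℝ] ℝ) (x : E) => g x)
    (isBoundedBilinearMap_apply.continuous)
  exact this

theorem le_spt {K : Set E} (hK : IsCompact K) (f : E →L[ℝ] ℝ) {x : E} (hx : x ∈ K) :
    f x ≤ spt K f := le_csSup (hK.image f.continuous).bddAbove ⟨x, hx, rfl⟩

theorem exists_spt {K : Set E} (hK : IsCompact K) (hn : K.Nonempty) (f : E →L[ℝ] ℝ) :
    ∃ x ∈ K, f x = spt K f := by
  obtain ⟨x, hx, hxe⟩ := (hK.image f.continuous).sSup_mem (hn.image f)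
  exact ⟨x, hx, hxe⟩

theorem spt_nonneg {K : Set E} (hK : IsCompact K) (hs : ∀ x ∈ K, -x ∈ K) (f : E →L[ℝ] ℝ) :
    0 ≤ spt K f := by
  rcases K.eq_empty_or_nonempty with h | ⟨x, hx⟩
  · simp [spt, h]
  · have h1 := le_spt hK f hx
    have h2 := le_spt hK f (hs x hx)
    rw [map_neg] at h2
    linarith

theorem lcomb_closed (K L : Set E) (lam : ℝ) : IsClosed (lcomb K L lam) := by
  have : lcomb K L lam = ⋂ f : E →L[ℝ] ℝ, {x | f x ≤ spt K f ^ (1 - lam) * spt L f ^ lam} := by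
    ext x; simp [lcomb]
  rw [this]
  exact isClosed_iInter fun f => isClosed_le f.continuous continuous_const

theorem spt_neg {K : Set E} (hs : ∀ x ∈ K, -x ∈ K) (f : E →L[ℝ] ℝ) : spt K (-f) = spt K f := by
  have : (-f : E →L[ℝ] ℝ) '' K = f '' K := by
    ext y
    constructor
    · rintro ⟨x, hx, rfl⟩; exact ⟨-x, hs x hx, by simp⟩
    · rintro ⟨x, hx, rfl⟩; exact ⟨-x, hs x hx, by simp⟩
  rw [spt, spt, this]

theorem abs_le_of_mem_lcomb {K L : Set E} (hKs : ∀ x ∈ K, -x ∈ K) (hLs : ∀ x ∈ L, -x ∈ L)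
    {lam : ℝ} {x : E} (hx : x ∈ lcomb K L lam) (f : E →L[ℝ] ℝ) :
    |f x| ≤ spt K f ^ (1 - lam) * spt L f ^ lam := by
  rw [abs_le]
  constructor
  · have := hx (-f)
    rw [spt_neg hKs, spt_neg hLs] at this
    simp only [neg_apply] at this
    linarith
  · exact hx f

end Defs

theorem spt_pos {K : Set (ℝ × ℝ)} (hK : IsCompact K) (hs : ∀ x ∈ K, -x ∈ K)
    (hv : volume K ≠ 0) {f : ℝ × ℝ →L[ℝ] ℝ} (hf : f ≠ 0) : 0 < spt K f := by
  rcases (spt_nonneg hK hs f).lt_or_eq with h | h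
  · exact h
  · exfalso
    apply hv
    have hz : K ⊆ (LinearMap.ker (f : ℝ × ℝ →ₗ[ℝ] ℝ) : Submodule ℝ (ℝ × ℝ)) := by
      intro x hx
      have h1 := le_spt hK f hx
      have h2 := le_spt hK f (hs x hx)
      rw [map_neg] at h2
      simp only [SetLike.mem_coe, LinearMap.mem_ker, ContinuousLinearMap.coe_coe]
      linarith
    have hne : LinearMap.ker (f : ℝ × ℝ →ₗ[ℝ] ℝ) ≠ ⊤ := by
      intro ht
      apply hf
      have := LinearMap.ker_eq_top.1 ht
      ext <;> simpa using congrArg (fun g : ℝ × ℝ →ₗ[ℝ] ℝ => g _) this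
    exact measure_mono_null hz (Measure.addHaar_submodule volume _ hne)

theorem planar_lbm {K L : Set (ℝ × ℝ)} (hK : IsCompact K) (hL : IsCompact L)
    (hKs : ∀ x ∈ K, -x ∈ K) (hLs : ∀ x ∈ L, -x ∈ L) {lam : ℝ} (h0 : 0 < lam) (h1 : lam < 1) :
    volume K ^ (1 - lam) * volume L ^ lam ≤ volume (lcomb K L lam) := by
  classical
  have h1' : 0 < 1 - lam := by linarith
  by_cases hvK : volume K = 0
  · simp [hvK, h1']
  by_cases hvL : volume L = 0
  · simp [hvL, h0]
  set D : ℕ → (ℝ × ℝ →L[ℝ] ℝ) := TopologicalSpace.denseSeq _ with hD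
  set r : (ℝ × ℝ →L[ℝ] ℝ) → ℝ := fun f => spt K f ^ (1 - lam) * spt L f ^ lam with hr
  have hrc : Continuous r := by
    refine Continuous.mul ?_ ?_
    · exact (spt_cont hK).rpow_const fun _ => Or.inr h1'.le
    · exact (spt_cont hL).rpow_const fun _ => Or.inr h0.le
  set e1 : ℝ × ℝ →L[ℝ] ℝ := ContinuousLinearMap.fst ℝ ℝ ℝ with he1
  set e2 : ℝ × ℝ →L[ℝ] ℝ := ContinuousLinearMap.snd ℝ ℝ ℝ with he2
  set C : ℕ → Set (ℝ × ℝ) := fun n => {x | |e1 x| ≤ r e1 ∧ |e2 x| ≤ r e2 ∧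
    ∀ k < n, |D k x| ≤ r (D k)} with hC
  have hCclosed : ∀ n, IsClosed (C n) := by
    intro n
    have : C n = {x | |e1 x| ≤ r e1} ∩ ({x | |e2 x| ≤ r e2} ∩ ⋂ k, ⋂ (_ : k < n), {x | |D k x| ≤ r (D k)}) := by
      ext x; simp [hC]
    rw [this]
    refine (isClosed_le e1.continuous.abs continuous_const).inter
      ((isClosed_le e2.continuous.abs continuous_const).inter ?_)
    exact isClosed_iInter fun k => isClosed_iInter fun _ =>
      isClosed_le (D k).continuous.abs continuous_const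
  have hCanti : Antitone C := by
    intro m n hmn x hx
    exact ⟨hx.1, hx.2.1, fun k hk => hx.2.2 k (hk.trans_le hmn)⟩
  have hCinter : lcomb K L lam = ⋂ n, C n := by
    ext x
    simp only [mem_iInter]
    constructor
    · intro hx n
      exact ⟨abs_le_of_mem_lcomb hKs hLs hx e1, abs_le_of_mem_lcomb hKs hLs hx e2,
        fun k _ => abs_le_of_mem_lcomb hKs hLs hx (D k)⟩
    · intro hx f
      have hcl : IsClosed {f : ℝ × ℝ →L[ℝ] ℝ | f x ≤ r f} := by
        refine isClosed_le ?_ hrc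
        exact (ContinuousLinearMap.apply ℝ ℝ x).continuous
      have hall : ∀ f : ℝ × ℝ →L[ℝ] ℝ, f ∈ {f : ℝ × ℝ →L[ℝ] ℝ | f x ≤ r f} := by
        have hdense := TopologicalSpace.denseRange_denseSeq (ℝ × ℝ →L[ℝ] ℝ)
        intro f
        refine hdense.induction_on (p := fun f => f ∈ {f : ℝ × ℝ →L[ℝ] ℝ | f x ≤ r f}) f ?_ ?_
        · exact hcl
        · intro k
          exact (le_abs_self _).trans ((hx (k + 1)).2.2 k (Nat.lt_succ_self k))
      exact hall f
  have hCbdd : ∀ n, IsCompact (C n) := by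
    intro n
    refine Metric.isCompact_of_isClosed_isBounded (hCclosed n) ?_
    have : C n ⊆ Metric.closedBall 0 (max (r e1) (r e2)) := by
      intro x hx
      rw [mem_closedBall_zero_iff, Prod.norm_def]
      exact max_le_max hx.1 hx.2.1
    exact Metric.isBounded_closedBall.subset this
  rw [hCinter, hCanti.measure_iInter (fun n => (hCclosed n).measurableSet.nullMeasurableSet)
    ⟨0, (hCbdd 0).measure_lt_top.ne⟩]
  refine le_iInf fun n => ?_
  -- finite family
  set ψ : Fin n ⊕ Fin 2 → (ℝ × ℝ →L[ℝ] ℝ) := Sum.elim (fun k => D k) ![e1, e2] with hψ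
  set φ : Fin n ⊕ Fin 2 → (ℝ × ℝ →ₗ[ℝ] ℝ) := fun i => (ψ i : ℝ × ℝ →ₗ[ℝ] ℝ) with hφ
  have hsep : Sep φ := by
    intro x hx
    have hx1 := hx (Sum.inr 0)
    have hx2 := hx (Sum.inr 1)
    simp [hφ, hψ, he1] at hx1
    simp [hφ, hψ, he2] at hx2
    ext
    · exact hx1
    · exact hx2
  set hk : Fin n ⊕ Fin 2 → ℝ := fun i => if ψ i = 0 then 1 else spt K (ψ i) with hhk
  set hl : Fin n ⊕ Fin 2 → ℝ := fun i => if ψ i = 0 then 1 else spt L (ψ i) with hhl
  have hkpos : ∀ i, 0 < hk i := by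
    intro i
    simp only [hhk]
    split_ifs with h
    · exact one_pos
    · exact spt_pos hK hKs hvK h
  have hlpos : ∀ i, 0 < hl i := by
    intro i
    simp only [hhl]
    split_ifs with h
    · exact one_pos
    · exact spt_pos hL hLs hvL h
  have key := planar_Pg hsep hkpos hlpos h0.le h1.le
  have hKsub : ∀ {K : Set (ℝ × ℝ)}, IsCompact K → (∀ x ∈ K, -x ∈ K) →
      K ⊆ Pg φ (fun i => if ψ i = 0 then 1 else spt K (ψ i)) := by
    intro K hK hKs x hx i
    by_cases h : ψ i = 0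
    · simp [hφ, h]
    · simp only [h, if_false, hφ, ContinuousLinearMap.coe_coe]
      rw [abs_le]
      constructor
      · have := le_spt hK (ψ i) (hKs x hx)
        rw [map_neg] at this
        linarith
      · exact le_spt hK (ψ i) hx
  have hPsub : Pg φ (fun i => hk i ^ (1 - lam) * hl i ^ lam) ⊆ C n := by
    intro x hx
    have hx' : ∀ i, |ψ i x| ≤ r (ψ i) := by
      intro i
      have := hx i
      simp only [hφ, ContinuousLinearMap.coe_coe, hhk, hhl] at this
      by_cases h : ψ i = 0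
      · rw [h]
        simp only [zero_apply, abs_zero]
        exact mul_nonneg (Real.rpow_nonneg (spt_nonneg hK hKs _) _)
          (Real.rpow_nonneg (spt_nonneg hL hLs _) _)
      · simpa [h] using this
    refine ⟨?_, ?_, fun k hk => ?_⟩
    · simpa [hψ] using hx' (Sum.inr 0)
    · simpa [hψ] using hx' (Sum.inr 1)
    · simpa [hψ] using hx' (Sum.inl ⟨k, hk⟩)
  have fin : ∀ h : Fin n ⊕ Fin 2 → ℝ, volume (Pg φ h) ≠ ∞ := fun h =>
    (Pg_compact hsep h).measure_lt_top.ne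
  calc volume K ^ (1 - lam) * volume L ^ lam
      ≤ volume (Pg φ hk) ^ (1 - lam) * volume (Pg φ hl) ^ lam :=
        mul_le_mul' (ENNReal.rpow_le_rpow (measure_mono (hKsub hK hKs)) h1'.le)
          (ENNReal.rpow_le_rpow (measure_mono (hKsub hL hLs)) h0.le)
    _ = ENNReal.ofReal (ar (Pg φ hk) ^ (1 - lam) * ar (Pg φ hl) ^ lam) := by
        simp only [ar]
        rw [ENNReal.ofReal_mul (Real.rpow_nonneg ENNReal.toReal_nonneg _),
          ← ENNReal.ofReal_rpow_of_nonneg ENNReal.toReal_nonneg h1'.le,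
          ← ENNReal.ofReal_rpow_of_nonneg ENNReal.toReal_nonneg h0.le,
          ENNReal.ofReal_toReal (fin _), ENNReal.ofReal_toReal (fin _)]
    _ ≤ ENNReal.ofReal (ar (Pg φ fun i => hk i ^ (1 - lam) * hl i ^ lam)) :=
        ENNReal.ofReal_le_ofReal key
    _ = volume (Pg φ fun i => hk i ^ (1 - lam) * hl i ^ lam) := by
        rw [ar, ENNReal.ofReal_toReal (fin _)]
    _ ≤ volume (C n) := measure_mono hPsub

end Vale.Agent.P227
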