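import Vale.Agent.P227.Gen

open MeasureTheory Set Pointwise
open scoped ENNReal

namespace Vale.Agent.P227

theorem holder2 {a b c d lam : ℝ} (h0 : 0 < lam) (h1 : lam < 1) (ha : 0 ≤ a) (hb : 0 ≤ b)
    (hc : 0 ≤ c) (hd : 0 ≤ d) :
    a ^ (1 - lam) * b ^ lam + c ^ (1 - lam) * d ^ lam ≤ (a + c) ^ (1 - lam) * (b + d) ^ lam := by
  have h1' : 0 < 1 - lam := by linarith
  rcases (add_nonneg ha hc).eq_or_lt with h | h
  · have ha0 : a = 0 := by linarith
    have hc0 : c = 0 := by linarith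
    subst ha0 hc0
    simp [Real.zero_rpow h1'.ne']
  rcases (add_nonneg hb hd).eq_or_lt with h' | h'
  · have hb0 : b = 0 := by linarith
    have hd0 : d = 0 := by linarith
    subst hb0 hd0
    simp [Real.zero_rpow h0.ne']
  have k1 := Real.geom_mean_le_arith_mean2_weighted h1'.le h0.le (div_nonneg ha h.le)
    (div_nonneg hb h'.le) (by ring)
  have k2 := Real.geom_mean_le_arith_mean2_weighted h1'.le h0.le (div_nonneg hc h.le)
    (div_nonneg hd h'.le) (by ring)
  rw [Real.div_rpow ha h.le, Real.div_rpow hb h'.le] at k1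
  rw [Real.div_rpow hc h.le, Real.div_rpow hd h'.le] at k2
  have hP : 0 < (a + c) ^ (1 - lam) := Real.rpow_pos_of_pos h _
  have hQ : 0 < (b + d) ^ lam := Real.rpow_pos_of_pos h' _
  have e1 : (1 - lam) * (a / (a + c)) + lam * (b / (b + d)) +
      ((1 - lam) * (c / (a + c)) + lam * (d / (b + d))) = 1 := by
    field_simp
    ring
  have k3 := add_le_add k1 k2
  rw [e1] at k3
  have e2 : a ^ (1 - lam) / (a + c) ^ (1 - lam) * (b ^ lam / (b + d) ^ lam) +
      c ^ (1 - lam) / (a + c) ^ (1 - lam) * (d ^ lam / (b + d) ^ lam) =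
      (a ^ (1 - lam) * b ^ lam + c ^ (1 - lam) * d ^ lam) /
        ((a + c) ^ (1 - lam) * (b + d) ^ lam) := by
    field_simp
  rw [e2, div_le_one (mul_pos hP hQ)] at k3
  exact k3

theorem holder_sum {ι : Type} (s : Finset ι) {a b : ι → ℝ} {A B lam : ℝ} (h0 : 0 < lam)
    (h1 : lam < 1) (ha : ∀ i, 0 ≤ a i) (hb : ∀ i, 0 ≤ b i) (hA : 0 ≤ A) (hB : 0 ≤ B) :
    ∑ i ∈ s, a i ^ (1 - lam) * b i ^ lam + A ^ (1 - lam) * B ^ lam ≤
      (∑ i ∈ s, a i + A) ^ (1 - lam) * (∑ i ∈ s, b i + B) ^ lam := by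
  classical
  induction s using Finset.induction_on with
  | empty => simp
  | insert i s hi ih =>
    rw [Finset.sum_insert hi, Finset.sum_insert hi, Finset.sum_insert hi]
    have hsa : 0 ≤ ∑ i ∈ s, a i + A := add_nonneg (Finset.sum_nonneg fun i _ => ha i) hA
    have hsb : 0 ≤ ∑ i ∈ s, b i + B := add_nonneg (Finset.sum_nonneg fun i _ => hb i) hB
    have := holder2 h0 h1 (ha i) (hb i) hsa hsb
    have e1 : a i + ∑ i ∈ s, a i + A = a i + (∑ i ∈ s, a i + A) := by ring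
    have e2 : b i + ∑ i ∈ s, b i + B = b i + (∑ i ∈ s, b i + B) := by ring
    rw [e1, e2]
    linarith

variable {F : Type*} [NormedAddCommGroup F] [NormedSpace ℝ F]

/-- sign change on the first factor -/
noncomputable def flipMap {k : ℕ} (ε : Fin k → ℝ) :
    ((Fin k → ℝ) × F) →L[ℝ] ((Fin k → ℝ) × F) :=
  ContinuousLinearMap.prodMap (ContinuousLinearMap.pi fun i => ε i • ContinuousLinearMap.proj i)
    (ContinuousLinearMap.id ℝ F)

theorem flipMap_apply {k : ℕ} (ε : Fin k → ℝ) (p : (Fin k → ℝ) × F) :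
    flipMap ε p = (fun i => ε i * p.1 i, p.2) := by
  simp [flipMap]
  rfl

def FlipInv {k : ℕ} (K : Set ((Fin k → ℝ) × F)) : Prop :=
  ∀ ε : Fin k → ℝ, (∀ i, ε i = 1 ∨ ε i = -1) → ∀ p ∈ K, flipMap ε p ∈ K

theorem spt_flip {k : ℕ} {K : Set ((Fin k → ℝ) × F)} (hK : FlipInv K) {ε : Fin k → ℝ}
    (hε : ∀ i, ε i = 1 ∨ ε i = -1) (f : ((Fin k → ℝ) × F) →L[ℝ] ℝ) :
    spt K (f.comp (flipMap ε)) = spt K f := by
  have hεε : ∀ p : (Fin k → ℝ) × F, flipMap ε (flipMap ε p) = p := by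
    intro p
    rw [flipMap_apply, flipMap_apply]
    ext i
    · simp only
      rcases hε i with h | h <;> rw [h] <;> ring
    · rfl
  have : (f.comp (flipMap ε)) '' K = f '' K := by
    ext y
    constructor
    · rintro ⟨x, hx, rfl⟩; exact ⟨flipMap ε x, hK ε hε x hx, rfl⟩
    · rintro ⟨x, hx, rfl⟩
      exact ⟨flipMap ε x, hK ε hε x hx, by simp [hεε]⟩
  rw [spt, spt, this]

theorem lcomb_flipInv {k : ℕ} {K L : Set ((Fin k → ℝ) × F)} (hK : FlipInv K) (hL : FlipInv L)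
    (lam : ℝ) : FlipInv (lcomb K L lam) := by
  intro ε hε x hx f
  have := hx (f.comp (flipMap ε))
  rw [spt_flip hK hε, spt_flip hL hε] at this
  exact this

theorem section_abs {k : ℕ} {K : Set ((Fin k → ℝ) × F)} (hK : FlipInv K) (y : Fin k → ℝ) :
    Prod.mk (fun i => |y i|) ⁻¹' K = Prod.mk y ⁻¹' K := by
  ext z
  simp only [mem_preimage]
  set ε : Fin k → ℝ := fun i => if 0 ≤ y i then 1 else -1 with hε
  have hε1 : ∀ i, ε i = 1 ∨ ε i = -1 := by
    intro i; simp only [hε]; split_ifs <;> simp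
  have h1 : ∀ i, ε i * y i = |y i| := by
    intro i; simp only [hε]
    split_ifs with h
    · rw [abs_of_nonneg h, one_mul]
    · rw [abs_of_neg (not_le.1 h)]; ring
  have h2 : ∀ i, ε i * |y i| = y i := by
    intro i; simp only [hε]
    split_ifs with h
    · rw [abs_of_nonneg h, one_mul]
    · rw [abs_of_neg (not_le.1 h)]; ring
  constructor
  · intro h
    have := hK ε hε1 _ h
    rw [flipMap_apply] at this
    simpa only [h2] using this
  · intro h
    have := hK ε hε1 _ h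
    rw [flipMap_apply] at this
    simpa only [h1] using this

theorem section_incl {k : ℕ} {K L : Set ((Fin k → ℝ) × F)} (hK : IsCompact K) (hL : IsCompact L)
    (hKf : FlipInv K) (hLf : FlipInv L)
    {lam : ℝ} (h0 : 0 < lam) (h1 : lam < 1) {s t : Fin k → ℝ} (hs : ∀ i, 0 < s i)
    (ht : ∀ i, 0 < t i) (hKs : IsCompact (Prod.mk s ⁻¹' K)) (hLt : IsCompact (Prod.mk t ⁻¹' L))
    (hKsy : ∀ z ∈ Prod.mk s ⁻¹' K, -z ∈ Prod.mk s ⁻¹' K)
    (hLty : ∀ z ∈ Prod.mk t ⁻¹' L, -z ∈ Prod.mk t ⁻¹' L)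
    (hKn : (Prod.mk s ⁻¹' K).Nonempty) (hLn : (Prod.mk t ⁻¹' L).Nonempty) :
    lcomb (Prod.mk s ⁻¹' K) (Prod.mk t ⁻¹' L) lam ⊆
      Prod.mk (fun i => s i ^ (1 - lam) * t i ^ lam) ⁻¹' lcomb K L lam := by
  classical
  have h1' : 0 < 1 - lam := by linarith
  intro w hw f
  set ψ : F →L[ℝ] ℝ := f.comp (ContinuousLinearMap.inr ℝ (Fin k → ℝ) F) with hψ
  set c : Fin k → ℝ := fun i => f (Pi.single i 1, 0) with hc
  have hf : ∀ (y : Fin k → ℝ) (z : F), f (y, z) = ∑ i, c i * y i + ψ z := by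
    intro y z
    have e : ((y, z) : (Fin k → ℝ) × F) =
        ∑ i, y i • ((Pi.single i (1 : ℝ) : Fin k → ℝ), (0 : F)) + (0, z) := by
      apply Prod.ext
      · rw [Prod.fst_add, Prod.fst_sum]
        simp only [Prod.smul_fst, add_zero]
        funext j
        simp [Finset.sum_apply, Pi.single_apply]
      · rw [Prod.snd_add, Prod.snd_sum]
        simp
    rw [e, map_add, map_sum]
    simp only [map_smul, smul_eq_mul]
    congr 1
    exact Finset.sum_congr rfl fun i _ => by simp only [hc]; ring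
  have main : ∀ {K : Set ((Fin k → ℝ) × F)} {s : Fin k → ℝ}, IsCompact K → FlipInv K →
      IsCompact (Prod.mk s ⁻¹' K) → (Prod.mk s ⁻¹' K).Nonempty →
      ∑ i, |c i| * s i + spt (Prod.mk s ⁻¹' K) ψ ≤ spt K f := by
    intro K s hK hKf hKs hKn
    obtain ⟨z0, hz0, hz0e⟩ := exists_spt hKs hKn ψ
    set ε : Fin k → ℝ := fun i => if 0 ≤ c i then 1 else -1 with hε
    have hε1 : ∀ i, ε i = 1 ∨ ε i = -1 := by
      intro i; simp only [hε]; split_ifs <;> simp
    have h3 := le_spt hK f (hKf ε hε1 _ hz0)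
    rw [flipMap_apply, hf, hz0e] at h3
    refine le_trans (le_of_eq ?_) h3
    congr 1
    refine Finset.sum_congr rfl fun i _ => ?_
    simp only [hε]
    split_ifs with h
    · rw [abs_of_nonneg h, one_mul]
    · rw [abs_of_neg (not_le.1 h)]; ring
  have mK := main hK hKf hKs hKn
  have mL := main hL hLf hLt hLn
  have nK := spt_nonneg hKs hKsy ψ
  have nL := spt_nonneg hLt hLty ψ
  rw [hf]
  have e4 : ∀ i, c i * (s i ^ (1 - lam) * t i ^ lam) ≤
      (|c i| * s i) ^ (1 - lam) * (|c i| * t i) ^ lam := by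
    intro i
    have hst : 0 < s i ^ (1 - lam) * t i ^ lam :=
      mul_pos (Real.rpow_pos_of_pos (hs i) _) (Real.rpow_pos_of_pos (ht i) _)
    rw [Real.mul_rpow (abs_nonneg _) (hs i).le, Real.mul_rpow (abs_nonneg _) (ht i).le]
    have e5 : |c i| ^ (1 - lam) * s i ^ (1 - lam) * (|c i| ^ lam * t i ^ lam) =
        |c i| * (s i ^ (1 - lam) * t i ^ lam) := by
      have : |c i| ^ (1 - lam) * |c i| ^ lam = |c i| := by
        rw [← Real.rpow_add_of_nonneg (abs_nonneg _) h1'.le h0.le]; simp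
      calc _ = (|c i| ^ (1 - lam) * |c i| ^ lam) * (s i ^ (1 - lam) * t i ^ lam) := by ring
        _ = _ := by rw [this]
    rw [e5]
    exact mul_le_mul_of_nonneg_right (le_abs_self _) hst.le
  calc ∑ i, c i * (s i ^ (1 - lam) * t i ^ lam) + ψ w
      ≤ ∑ i, (|c i| * s i) ^ (1 - lam) * (|c i| * t i) ^ lam +
        spt (Prod.mk s ⁻¹' K) ψ ^ (1 - lam) * spt (Prod.mk t ⁻¹' L) ψ ^ lam :=
        add_le_add (Finset.sum_le_sum fun i _ => e4 i) (hw ψ)
    _ ≤ (∑ i, |c i| * s i + spt (Prod.mk s ⁻¹' K) ψ) ^ (1 - lam) *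
        (∑ i, |c i| * t i + spt (Prod.mk t ⁻¹' L) ψ) ^ lam :=
        holder_sum Finset.univ h0 h1 (fun i => mul_nonneg (abs_nonneg _) (hs i).le)
          (fun i => mul_nonneg (abs_nonneg _) (ht i).le) nK nL
    _ ≤ spt K f ^ (1 - lam) * spt L f ^ lam := by
        have sK : 0 ≤ ∑ i, |c i| * s i + spt (Prod.mk s ⁻¹' K) ψ :=
          add_nonneg (Finset.sum_nonneg fun i _ => mul_nonneg (abs_nonneg _) (hs i).le) nK
        have sL : 0 ≤ ∑ i, |c i| * t i + spt (Prod.mk t ⁻¹' L) ψ :=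
          add_nonneg (Finset.sum_nonneg fun i _ => mul_nonneg (abs_nonneg _) (ht i).le) nL
        exact mul_le_mul (Real.rpow_le_rpow sK mK h1'.le) (Real.rpow_le_rpow sL mL h0.le)
          (Real.rpow_nonneg sL _) (Real.rpow_nonneg (sK.trans mK) _)

theorem lift_lbm [MeasureSpace F] [BorelSpace F] [SecondCountableTopology F]
    [SFinite (volume : Measure F)] {lam : ℝ} (h0 : 0 < lam) (h1 : lam < 1)
    (hF : ∀ K L : Set F, IsCompact K → IsCompact L → Convex ℝ K → Convex ℝ L →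
      (∀ x ∈ K, -x ∈ K) → (∀ x ∈ L, -x ∈ L) →
      volume K ^ (1 - lam) * volume L ^ lam ≤ volume (lcomb K L lam))
    {k : ℕ} {K L : Set ((Fin k → ℝ) × F)} (hK : IsCompact K) (hL : IsCompact L)
    (hKc : Convex ℝ K) (hLc : Convex ℝ L)
    (hKs : ∀ x ∈ K, -x ∈ K) (hLs : ∀ x ∈ L, -x ∈ L) (hKf : FlipInv K) (hLf : FlipInv L) :
    volume K ^ (1 - lam) * volume L ^ lam ≤ volume (lcomb K L lam) := by
  have h1' : 0 < 1 - lam := by linarith
  have hM : MeasurableSet (lcomb K L lam) := (lcomb_closed K L lam).measurableSet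
  rw [Measure.volume_eq_prod, Measure.prod_apply hK.measurableSet,
    Measure.prod_apply hL.measurableSet, Measure.prod_apply hM]
  have secC : ∀ {K : Set ((Fin k → ℝ) × F)} (y : Fin k → ℝ), IsCompact K →
      IsCompact (Prod.mk y ⁻¹' K) := by
    intro K y hK
    have hcl : IsClosed (Prod.mk y ⁻¹' K) := hK.isClosed.preimage (by fun_prop)
    refine (hK.image continuous_snd).of_isClosed_subset hcl ?_
    intro z hz
    exact ⟨(y, z), hz, rfl⟩
  have secV : ∀ {K : Set ((Fin k → ℝ) × F)} (y : Fin k → ℝ), Convex ℝ K →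
      Convex ℝ (Prod.mk y ⁻¹' K) := by
    intro K y hK z hz z' hz' a b ha hb hab
    have := hK hz hz' ha hb hab
    have e : a • (y, z) + b • (y, z') = (y, a • z + b • z') := by
      ext
      · simp only [Prod.smul_mk, Prod.mk_add_mk, Pi.add_apply, Pi.smul_apply, smul_eq_mul]
        rw [← add_mul, hab, one_mul]
      · rfl
    rw [e] at this
    exact this
  have secS : ∀ {K : Set ((Fin k → ℝ) × F)} (y : Fin k → ℝ), FlipInv K → (∀ x ∈ K, -x ∈ K) →
      ∀ z ∈ Prod.mk y ⁻¹' K, -z ∈ Prod.mk y ⁻¹' K := by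
    intro K y hKf hKs z hz
    have h3 := hKf (fun _ => -1) (fun _ => Or.inr rfl) _ (hKs _ hz)
    rw [flipMap_apply] at h3
    simpa using h3
  refine pl_pi h0 h1 k (measurable_measure_prodMk_left hK.measurableSet)
    (measurable_measure_prodMk_left hL.measurableSet) (measurable_measure_prodMk_left hM)
    (fun y => by rw [section_abs hKf]) (fun y => by rw [section_abs hLf])
    (fun y => by rw [section_abs (lcomb_flipInv hKf hLf lam)]) fun s t hs ht => ?_
  rcases (Prod.mk s ⁻¹' K).eq_empty_or_nonempty with hKn | hKn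
  · rw [hKn]; simp [h1']
  rcases (Prod.mk t ⁻¹' L).eq_empty_or_nonempty with hLn | hLn
  · rw [hLn]; simp [h0]
  refine (hF _ _ (secC s hK) (secC t hL) (secV s hKc) (secV t hLc) (secS s hKf hKs)
    (secS t hLf hLs)).trans (measure_mono ?_)
  exact section_incl hK hL hKf hLf h0 h1 hs ht (secC s hK) (secC t hL) (secS s hKf hKs)
    (secS t hLf hLs) hKn hLn

end Vale.Agent.P227
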