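import Mathlib

open MeasureTheory Set Pointwise
open scoped ENNReal

namespace Vale.Agent.P227

theorem bm_one {A B : Set ℝ} (hA : IsCompact A) (hB : IsCompact B) (hAn : A.Nonempty)
    (hBn : B.Nonempty) : volume A + volume B ≤ volume (A + B) := by
  set a := sSup A with ha
  set b := sInf B with hb
  have haA : a ∈ A := hA.sSup_mem hAn
  have hbB : b ∈ B := hB.sInf_mem hBn
  have hleA : ∀ x ∈ A, x ≤ a := fun x hx => le_csSup hA.bddAbove hx
  have hleB : ∀ x ∈ B, b ≤ x := fun x hx => csInf_le hB.bddBelow hx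
  set A' : Set ℝ := (fun x => x + b) '' A
  set B' : Set ℝ := (fun x => a + x) '' B
  have hA'c : IsCompact A' := hA.image (by fun_prop)
  have hB'c : IsCompact B' := hB.image (by fun_prop)
  have hvA : volume A' = volume A := by
    simp only [A', image_add_right, measure_preimage_add_right]
  have hvB : volume B' = volume B := by
    simp only [B', image_add_left, measure_preimage_add]
  have hsub : A' ∪ B' ⊆ A + B := by
    rintro z (⟨x, hx, rfl⟩ | ⟨x, hx, rfl⟩)
    · exact Set.add_mem_add hx hbB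
    · exact Set.add_mem_add haA hx
  have hdisj : AEDisjoint volume A' B' := by
    have : A' ∩ B' ⊆ {a + b} := by
      rintro z ⟨⟨x, hx, rfl⟩, ⟨y, hy, hxy⟩⟩
      have h1 := hleA x hx
      have h2 := hleB y hy
      simp only at hxy
      simp only [mem_singleton_iff]
      linarith
    exact measure_mono_null this (by simp)
  calc volume A + volume B = volume A' + volume B' := by rw [hvA, hvB]
    _ = volume (A' ∪ B') := (measure_union₀ hB'c.measurableSet.nullMeasurableSet hdisj).symm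
    _ ≤ volume (A + B) := measure_mono hsub

theorem meas_eq_iSup_sub {A : Set ℝ} (hA : MeasurableSet A) :
    volume A = ⨆ K : {K : Set ℝ // K ⊆ A ∧ IsCompact K}, volume (K : Set ℝ) := by
  rw [hA.measure_eq_iSup_isCompact volume]
  apply le_antisymm
  · refine iSup_le fun K => iSup_le fun hK => iSup_le fun hKc => ?_
    exact le_iSup (fun K : {K : Set ℝ // K ⊆ A ∧ IsCompact K} => volume (K : Set ℝ)) ⟨K, hK, hKc⟩
  · refine iSup_le fun K => ?_
    exact le_iSup_of_le K.1 (le_iSup_of_le K.2.1 (le_iSup_of_le K.2.2 le_rfl))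

theorem bm_one_meas {A B C : Set ℝ} (hA : MeasurableSet A) (hB : MeasurableSet B)
    (hAn : A.Nonempty) (hBn : B.Nonempty) (hC : A + B ⊆ C) :
    volume A + volume B ≤ volume C := by
  obtain ⟨x0, hx0⟩ := hAn
  obtain ⟨y0, hy0⟩ := hBn
  rw [meas_eq_iSup_sub hA, meas_eq_iSup_sub hB]
  have : Nonempty {K : Set ℝ // K ⊆ A ∧ IsCompact K} := ⟨⟨∅, by simp, isCompact_empty⟩⟩
  have : Nonempty {K : Set ℝ // K ⊆ B ∧ IsCompact K} := ⟨⟨∅, by simp, isCompact_empty⟩⟩
  refine ENNReal.iSup_add_iSup_le fun K L => ?_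
  have hK' : IsCompact ((K : Set ℝ) ∪ {x0}) := K.2.2.union isCompact_singleton
  have hL' : IsCompact ((L : Set ℝ) ∪ {y0}) := L.2.2.union isCompact_singleton
  calc volume (K : Set ℝ) + volume (L : Set ℝ)
      ≤ volume ((K : Set ℝ) ∪ {x0}) + volume ((L : Set ℝ) ∪ {y0}) :=
        add_le_add (measure_mono subset_union_left) (measure_mono subset_union_left)
    _ ≤ volume (((K : Set ℝ) ∪ {x0}) + ((L : Set ℝ) ∪ {y0})) :=
        bm_one hK' hL' ⟨x0, by simp⟩ ⟨y0, by simp⟩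
    _ ≤ volume C := by
        refine measure_mono (Subset.trans (Set.add_subset_add ?_ ?_) hC)
        · exact union_subset K.2.1 (by simpa using hx0)
        · exact union_subset L.2.1 (by simpa using hy0)

theorem bm_one_comb {A B C : Set ℝ} (hA : MeasurableSet A) (hB : MeasurableSet B)
    (hAn : A.Nonempty) (hBn : B.Nonempty) {lam : ℝ} (h0 : 0 < lam) (h1 : lam < 1)
    (hC : ∀ x ∈ A, ∀ y ∈ B, (1 - lam) * x + lam * y ∈ C) :
    ENNReal.ofReal (1 - lam) * volume A + ENNReal.ofReal lam * volume B ≤ volume C := by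
  have h1' : 0 < 1 - lam := by linarith
  have hA' : MeasurableSet ((1 - lam) • A) := hA.const_smul₀ _
  have hB' : MeasurableSet (lam • B) := hB.const_smul₀ _
  have := bm_one_meas (C := C) hA' hB' (hAn.smul_set) (hBn.smul_set) (by
    rintro z hz
    obtain ⟨x, hx, y, hy, rfl⟩ := Set.mem_add.1 hz
    obtain ⟨x', hx', rfl⟩ := hx
    obtain ⟨y', hy', rfl⟩ := hy
    exact hC x' hx' y' hy')
  rw [Measure.addHaar_smul, Measure.addHaar_smul] at this
  simpa [abs_of_pos h1', abs_of_pos h0] using this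

theorem ennreal_amgm {X Y : ℝ≥0∞} {lam : ℝ} (h0 : 0 < lam) (h1 : lam < 1) :
    X ^ (1 - lam) * Y ^ lam ≤ ENNReal.ofReal (1 - lam) * X + ENNReal.ofReal lam * Y := by
  have h1' : 0 < 1 - lam := by linarith
  have hpq : (1 / (1 - lam)).HolderConjugate (1 / lam) := by
    rw [Real.holderConjugate_iff]
    constructor
    · rw [lt_div_iff₀ h1']; linarith
    · field_simp; ring
  have := ENNReal.young_inequality (X ^ (1 - lam)) (Y ^ lam) hpq
  rw [← ENNReal.rpow_mul, ← ENNReal.rpow_mul] at this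
  have e1 : (1 - lam) * (1 / (1 - lam)) = 1 := by field_simp
  have e2 : lam * (1 / lam) = 1 := by field_simp
  rw [e1, e2, ENNReal.rpow_one, ENNReal.rpow_one] at this
  refine this.trans (le_of_eq ?_)
  have g1 : ENNReal.ofReal (1 / (1 - lam)) = (ENNReal.ofReal (1 - lam))⁻¹ := by
    rw [one_div, ENNReal.ofReal_inv_of_pos h1']
  have g2 : ENNReal.ofReal (1 / lam) = (ENNReal.ofReal lam)⁻¹ := by
    rw [one_div, ENNReal.ofReal_inv_of_pos h0]
  rw [g1, g2, div_eq_mul_inv, div_eq_mul_inv, inv_inv, inv_inv, mul_comm X, mul_comm Y]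

theorem pl_norm {f g : ℝ → ℝ} {H : ℝ → ℝ≥0∞} {lam : ℝ} (h0 : 0 < lam) (h1 : lam < 1)
    (hf : Measurable f) (hg : Measurable g) (hH : Measurable H)
    (hf0 : ∀ x, 0 ≤ f x) (hf1 : ∀ x, f x ≤ 1) (hg0 : ∀ x, 0 ≤ g x) (hg1 : ∀ x, g x ≤ 1)
    (hfs : ∀ t < 1, ∃ x, t < f x) (hgs : ∀ t < 1, ∃ x, t < g x)
    (h : ∀ x y t, 0 < t → t < f x → t < g y → ENNReal.ofReal t < H ((1 - lam) * x + lam * y)) :
    (∫⁻ x, ENNReal.ofReal (f x)) ^ (1 - lam) * (∫⁻ x, ENNReal.ofReal (g x)) ^ lam ≤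
      ∫⁻ x, H x := by
  refine (ennreal_amgm h0 h1).trans ?_
  set k : ℝ → ℝ := fun x => (min (H x) 1).toReal with hk
  have hkm : Measurable k := by
    exact (hH.min measurable_const).ennreal_toReal
  have hk0 : ∀ x, 0 ≤ k x := fun x => ENNReal.toReal_nonneg
  have hle : ∫⁻ x, ENNReal.ofReal (k x) ≤ ∫⁻ x, H x := by
    refine lintegral_mono fun x => ?_
    simp only [hk]
    rw [ENNReal.ofReal_toReal (ne_top_of_le_ne_top ENNReal.one_ne_top (min_le_right _ _))]
    exact min_le_left _ _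
  refine le_trans ?_ hle
  rw [lintegral_eq_lintegral_meas_lt volume (Filter.Eventually.of_forall hk0) hkm.aemeasurable,
    lintegral_eq_lintegral_meas_lt volume (Filter.Eventually.of_forall hf0) hf.aemeasurable,
    lintegral_eq_lintegral_meas_lt volume (Filter.Eventually.of_forall hg0) hg.aemeasurable]
  rw [← lintegral_const_mul' _ _ ENNReal.ofReal_ne_top,
    ← lintegral_const_mul' _ _ ENNReal.ofReal_ne_top]
  have hanti : Antitone (fun t : ℝ => volume {a : ℝ | t < f a}) := fun s t hst =>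
    measure_mono fun x hx => lt_of_le_of_lt hst hx
  rw [← lintegral_add_left (hanti.measurable.const_mul _)]
  refine setLIntegral_mono' measurableSet_Ioi fun t ht => ?_
  have ht0 : (0 : ℝ) < t := ht
  by_cases ht1 : t < 1
  · refine bm_one_comb (measurableSet_lt measurable_const hf) (measurableSet_lt measurable_const hg)
      (hfs t ht1) (hgs t ht1) h0 h1 ?_
    intro x hx y hy
    have := h x y t ht0 hx hy
    simp only [mem_ofPred_eq, hk]
    rw [← ENNReal.ofReal_lt_iff_lt_toReal ht0.le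
      (ne_top_of_le_ne_top ENNReal.one_ne_top (min_le_right _ _))]
    refine lt_min this ?_
    rw [← ENNReal.ofReal_one]
    exact (ENNReal.ofReal_lt_ofReal_iff one_pos).2 ht1
  · have e1 : {a : ℝ | t < f a} = ∅ := by
      ext x; simp only [mem_ofPred_eq, mem_empty_iff_false, iff_false, not_lt]
      exact (hf1 x).trans (not_lt.1 ht1)
    have e2 : {a : ℝ | t < g a} = ∅ := by
      ext x; simp only [mem_ofPred_eq, mem_empty_iff_false, iff_false, not_lt]
      exact (hg1 x).trans (not_lt.1 ht1)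
    rw [e1, e2]; simp

theorem exists_lt_toReal_div {F : ℝ → ℝ≥0∞} {a : ℝ≥0∞} (haF : ∀ x, F x ≤ a) (hat : a ≠ ∞)
    (ha0 : ¬ a = 0) (ha : a = ⨆ x, F x) {t : ℝ} (ht : t < 1) : ∃ x, t < (F x / a).toReal := by
  rcases lt_or_ge t 0 with h | h
  · exact ⟨0, lt_of_lt_of_le h ENNReal.toReal_nonneg⟩
  · have h2 : ENNReal.ofReal t * a < a := by
      calc ENNReal.ofReal t * a < 1 * a := by
            rw [ENNReal.mul_lt_mul_iff_left ha0 hat]
            rw [← ENNReal.ofReal_one]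
            exact (ENNReal.ofReal_lt_ofReal_iff one_pos).2 ht
        _ = a := one_mul a
    nth_rewrite 2 [ha] at h2
    obtain ⟨x, hx⟩ := lt_iSup_iff.1 h2
    refine ⟨x, ?_⟩
    rw [← ENNReal.ofReal_lt_iff_lt_toReal h
      (ENNReal.div_lt_top (ne_top_of_le_ne_top hat (haF x)) ha0).ne]
    rwa [ENNReal.lt_div_iff_mul_lt (Or.inl ha0) (Or.inl hat)]

theorem pl_bdd {F G H : ℝ → ℝ≥0∞} {lam : ℝ} (h0 : 0 < lam) (h1 : lam < 1)
    (hF : Measurable F) (hG : Measurable G) (hH : Measurable H)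
    {cF cG : ℝ≥0∞} (hcF : cF ≠ ∞) (hcG : cG ≠ ∞) (hFb : ∀ x, F x ≤ cF) (hGb : ∀ x, G x ≤ cG)
    (h : ∀ x y, F x ^ (1 - lam) * G y ^ lam ≤ H ((1 - lam) * x + lam * y)) :
    (∫⁻ x, F x) ^ (1 - lam) * (∫⁻ x, G x) ^ lam ≤ ∫⁻ x, H x := by
  have h1' : 0 < 1 - lam := by linarith
  set a := ⨆ x, F x with ha
  set b := ⨆ x, G x with hb
  have haF : ∀ x, F x ≤ a := fun x => le_iSup F x
  have hbG : ∀ x, G x ≤ b := fun x => le_iSup G x
  have hat : a ≠ ∞ := ne_top_of_le_ne_top hcF (iSup_le hFb)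
  have hbt : b ≠ ∞ := ne_top_of_le_ne_top hcG (iSup_le hGb)
  by_cases ha0 : a = 0
  · have : ∀ x, F x = 0 := fun x => le_antisymm (ha0 ▸ haF x) bot_le
    simp [this, h1']
  by_cases hb0 : b = 0
  · have : ∀ x, G x = 0 := fun x => le_antisymm (hb0 ▸ hbG x) bot_le
    simp [this, h0]
  set c := a ^ (1 - lam) * b ^ lam with hc
  have hc0 : c ≠ 0 := by
    simp only [hc, ne_eq, mul_eq_zero, ENNReal.rpow_eq_zero_iff, not_or]
    exact ⟨⟨fun h => ha0 h.1, fun h => hat h.1⟩, ⟨fun h => hb0 h.1, fun h => hbt h.1⟩⟩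
  have hct : c ≠ ∞ := ENNReal.mul_ne_top (ENNReal.rpow_ne_top_of_nonneg h1'.le hat)
    (ENNReal.rpow_ne_top_of_nonneg h0.le hbt)
  have key := pl_norm (f := fun x => (F x / a).toReal) (g := fun x => (G x / b).toReal)
    (H := fun x => H x / c) h0 h1 (hF.div_const a).ennreal_toReal (hG.div_const b).ennreal_toReal
    (hH.div_const c) (fun x => ENNReal.toReal_nonneg) ?_ (fun x => ENNReal.toReal_nonneg) ?_ ?_ ?_ ?_
  · have eF : ∀ x, ENNReal.ofReal (F x / a).toReal = F x * a⁻¹ := fun x => by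
      rw [ENNReal.ofReal_toReal, div_eq_mul_inv]
      exact (ENNReal.div_lt_top (ne_top_of_le_ne_top hat (haF x)) ha0).ne
    have eG : ∀ x, ENNReal.ofReal (G x / b).toReal = G x * b⁻¹ := fun x => by
      rw [ENNReal.ofReal_toReal, div_eq_mul_inv]
      exact (ENNReal.div_lt_top (ne_top_of_le_ne_top hbt (hbG x)) hb0).ne
    have eH : ∀ x, H x / c = H x * c⁻¹ := fun x => div_eq_mul_inv _ _
    simp only [eF, eG, eH] at key
    rw [lintegral_mul_const' _ _ (ENNReal.inv_ne_top.2 ha0),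
      lintegral_mul_const' _ _ (ENNReal.inv_ne_top.2 hb0),
      lintegral_mul_const' _ _ (ENNReal.inv_ne_top.2 hc0)] at key
    rw [ENNReal.mul_rpow_of_nonneg _ _ h1'.le, ENNReal.mul_rpow_of_nonneg _ _ h0.le,
      ENNReal.inv_rpow, ENNReal.inv_rpow] at key
    have hac : a ^ (1 - lam) ≠ ∞ := ENNReal.rpow_ne_top_of_nonneg h1'.le hat
    have hbc : b ^ lam ≠ ∞ := ENNReal.rpow_ne_top_of_nonneg h0.le hbt
    have e3 : (a ^ (1 - lam))⁻¹ * (b ^ lam)⁻¹ = c⁻¹ := by
      rw [hc, ENNReal.mul_inv (Or.inr hbc) (Or.inl hac)]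
    have e4 : ((∫⁻ x, F x) ^ (1 - lam) * (a ^ (1 - lam))⁻¹) * ((∫⁻ x, G x) ^ lam * (b ^ lam)⁻¹)
        = ((∫⁻ x, F x) ^ (1 - lam) * (∫⁻ x, G x) ^ lam) * c⁻¹ := by
      rw [← e3]; ring
    rw [e4] at key
    exact (ENNReal.mul_le_mul_iff_left (ENNReal.inv_ne_zero.2 hct) (ENNReal.inv_ne_top.2 hc0)).1 key
  · intro x
    refine ENNReal.toReal_le_of_le_ofReal zero_le_one ?_
    rw [ENNReal.ofReal_one]
    exact ENNReal.div_le_of_le_mul (by simpa using haF x)
  · intro x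
    refine ENNReal.toReal_le_of_le_ofReal zero_le_one ?_
    rw [ENNReal.ofReal_one]
    exact ENNReal.div_le_of_le_mul (by simpa using hbG x)
  · intro t ht
    exact exists_lt_toReal_div haF hat ha0 ha ht
  · intro t ht
    exact exists_lt_toReal_div hbG hbt hb0 hb ht
  · intro x y t ht hx hy
    have hx' : ENNReal.ofReal t * a < F x := by
      rw [← ENNReal.lt_div_iff_mul_lt (Or.inl ha0) (Or.inl hat)]
      exact (ENNReal.ofReal_lt_iff_lt_toReal ht.le
        (ENNReal.div_lt_top (ne_top_of_le_ne_top hat (haF x)) ha0).ne).2 hx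
    have hy' : ENNReal.ofReal t * b < G y := by
      rw [← ENNReal.lt_div_iff_mul_lt (Or.inl hb0) (Or.inl hbt)]
      exact (ENNReal.ofReal_lt_iff_lt_toReal ht.le
        (ENNReal.div_lt_top (ne_top_of_le_ne_top hbt (hbG y)) hb0).ne).2 hy
    rw [ENNReal.lt_div_iff_mul_lt (Or.inl hc0) (Or.inl hct)]
    refine lt_of_lt_of_le ?_ (h x y)
    have e5 : ENNReal.ofReal t * c = (ENNReal.ofReal t * a) ^ (1 - lam) *
        (ENNReal.ofReal t * b) ^ lam := by
      rw [ENNReal.mul_rpow_of_nonneg _ _ h1'.le, ENNReal.mul_rpow_of_nonneg _ _ h0.le, hc]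
      have : ENNReal.ofReal t = ENNReal.ofReal t ^ (1 - lam) * ENNReal.ofReal t ^ lam := by
        rw [← ENNReal.rpow_add _ _ (by simpa using ht) ENNReal.ofReal_ne_top]
        simp
      nth_rewrite 1 [this]
      ring
    rw [e5]
    exact ENNReal.mul_lt_mul (ENNReal.rpow_lt_rpow hx' h1') (ENNReal.rpow_lt_rpow hy' h0)

theorem pl_add {F G H : ℝ → ℝ≥0∞} {lam : ℝ} (h0 : 0 < lam) (h1 : lam < 1)
    (hF : Measurable F) (hG : Measurable G) (hH : Measurable H)
    (h : ∀ x y, F x ^ (1 - lam) * G y ^ lam ≤ H ((1 - lam) * x + lam * y)) :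
    (∫⁻ x, F x) ^ (1 - lam) * (∫⁻ x, G x) ^ lam ≤ ∫⁻ x, H x := by
  have h1' : 0 < 1 - lam := by linarith
  have key : ∀ n : ℕ, (∫⁻ x, min (F x) n) ^ (1 - lam) * (∫⁻ x, min (G x) n) ^ lam
      ≤ ∫⁻ x, H x := by
    intro n
    refine pl_bdd h0 h1 (hF.min measurable_const) (hG.min measurable_const) hH
      (ENNReal.natCast_ne_top n) (ENNReal.natCast_ne_top n) (fun x => min_le_right _ _)
      (fun x => min_le_right _ _) fun x y => ?_
    refine le_trans ?_ (h x y)
    exact mul_le_mul' (ENNReal.rpow_le_rpow (min_le_left _ _) h1'.le)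
      (ENNReal.rpow_le_rpow (min_le_left _ _) h0.le)
  have lim : ∀ {F : ℝ → ℝ≥0∞}, Measurable F → Filter.Tendsto (fun n : ℕ => ∫⁻ x, min (F x) n)
      Filter.atTop (nhds (∫⁻ x, F x)) := by
    intro F hF
    refine lintegral_tendsto_of_tendsto_of_monotone (fun n => (hF.min measurable_const).aemeasurable)
      (Filter.Eventually.of_forall fun x m n hmn => ?_) (Filter.Eventually.of_forall fun x => ?_)
    · exact min_le_min le_rfl (by exact_mod_cast hmn)
    · have : Filter.Tendsto (fun n : ℕ => min (F x) (n : ℝ≥0∞)) Filter.atTop (nhds (min (F x) ∞)) :=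
        tendsto_const_nhds.min ENNReal.tendsto_nat_nhds_top
      simpa using this
  have t1 : Filter.Tendsto (fun n : ℕ => (∫⁻ x, min (F x) n) ^ (1 - lam)) Filter.atTop
      (nhds ((∫⁻ x, F x) ^ (1 - lam))) := (lim hF).ennrpow_const _
  have t2 : Filter.Tendsto (fun n : ℕ => (∫⁻ x, min (G x) n) ^ lam) Filter.atTop
      (nhds ((∫⁻ x, G x) ^ lam)) := (lim hG).ennrpow_const _
  by_cases hF0 : ∫⁻ x, F x = 0
  · simp [hF0, h1']
  by_cases hG0 : ∫⁻ x, G x = 0
  · simp [hG0, h0]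
  have hF0' : (∫⁻ x, F x) ^ (1 - lam) ≠ 0 := by
    simp [ENNReal.rpow_eq_zero_iff, hF0, h1.le]
  have hG0' : (∫⁻ x, G x) ^ lam ≠ 0 := by
    simp [ENNReal.rpow_eq_zero_iff, hG0, h0.le]
  exact le_of_tendsto (ENNReal.Tendsto.mul t1 (Or.inl hF0') t2 (Or.inl hG0'))
    (Filter.Eventually.of_forall key)

theorem lintegral_Ioi_exp (F : ℝ → ℝ≥0∞) :
    ∫⁻ x in Ioi (0 : ℝ), F x = ∫⁻ x, ENNReal.ofReal (Real.exp x) * F (Real.exp x) := by
  have := lintegral_image_eq_lintegral_abs_deriv_mul (s := univ) (f := Real.exp)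
    (f' := Real.exp) MeasurableSet.univ (fun x _ => (Real.hasDerivAt_exp x).hasDerivWithinAt)
    Real.exp_injective.injOn F
  rw [image_univ, Real.range_exp, Measure.restrict_univ] at this
  rw [this]
  simp only [abs_of_pos (Real.exp_pos _)]

theorem pl_mul {F G H : ℝ → ℝ≥0∞} {lam : ℝ} (h0 : 0 < lam) (h1 : lam < 1)
    (hF : Measurable F) (hG : Measurable G) (hH : Measurable H)
    (h : ∀ s t, 0 < s → 0 < t → F s ^ (1 - lam) * G t ^ lam ≤ H (s ^ (1 - lam) * t ^ lam)) :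
    (∫⁻ x in Ioi (0 : ℝ), F x) ^ (1 - lam) * (∫⁻ x in Ioi (0 : ℝ), G x) ^ lam ≤
      ∫⁻ x in Ioi (0 : ℝ), H x := by
  have h1' : 0 < 1 - lam := by linarith
  rw [lintegral_Ioi_exp, lintegral_Ioi_exp, lintegral_Ioi_exp]
  have hm : Measurable fun x => ENNReal.ofReal (Real.exp x) :=
    (Real.measurable_exp).ennreal_ofReal
  refine pl_add h0 h1 (hm.mul (hF.comp Real.measurable_exp))
    (hm.mul (hG.comp Real.measurable_exp)) (hm.mul (hH.comp Real.measurable_exp)) fun x y => ?_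
  have e : Real.exp ((1 - lam) * x + lam * y) = Real.exp x ^ (1 - lam) * Real.exp y ^ lam := by
    rw [← Real.exp_mul, ← Real.exp_mul, ← Real.exp_add]; ring_nf
  rw [ENNReal.mul_rpow_of_nonneg _ _ h1'.le, ENNReal.mul_rpow_of_nonneg _ _ h0.le, e]
  have e2 : ENNReal.ofReal (Real.exp x ^ (1 - lam) * Real.exp y ^ lam) =
      ENNReal.ofReal (Real.exp x) ^ (1 - lam) * ENNReal.ofReal (Real.exp y) ^ lam := by
    rw [ENNReal.ofReal_mul (by positivity), ENNReal.ofReal_rpow_of_pos (Real.exp_pos _),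
      ENNReal.ofReal_rpow_of_pos (Real.exp_pos _)]
  rw [e2]
  calc _ = (ENNReal.ofReal (Real.exp x) ^ (1 - lam) * ENNReal.ofReal (Real.exp y) ^ lam) *
        (F (Real.exp x) ^ (1 - lam) * G (Real.exp y) ^ lam) := by ring
    _ ≤ _ := mul_le_mul' le_rfl (h _ _ (Real.exp_pos _) (Real.exp_pos _))

theorem lintegral_even {F : ℝ → ℝ≥0∞} (hF : ∀ x, F (-x) = F x) :
    ∫⁻ x, F x = 2 * ∫⁻ x in Ioi (0 : ℝ), F x := by
  have h1 : ∫⁻ x, F x = (∫⁻ x in Ioi (0 : ℝ), F x) + ∫⁻ x in Iic (0 : ℝ), F x := by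
    rw [← lintegral_add_compl F (measurableSet_Ioi (a := (0 : ℝ))), compl_Ioi]
  have h2 : ∫⁻ x in Iic (0 : ℝ), F x = ∫⁻ x in Ioi (0 : ℝ), F x := by
    rw [setLIntegral_congr (Iio_ae_eq_Iic (a := (0 : ℝ)) (μ := volume)).symm]
    have hmp := Measure.measurePreserving_neg (volume : Measure ℝ)
    have := hmp.setLIntegral_comp_preimage_emb (MeasurableEquiv.neg ℝ).measurableEmbedding F
      (Ioi (0 : ℝ))
    simp only [hF] at this
    rw [← this]
    congr 2
    ext x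
    simp
  rw [h1, h2, two_mul]

theorem pl_mul_even {F G H : ℝ → ℝ≥0∞} {lam : ℝ} (h0 : 0 < lam) (h1 : lam < 1)
    (hF : Measurable F) (hG : Measurable G) (hH : Measurable H)
    (hFe : ∀ x, F (-x) = F x) (hGe : ∀ x, G (-x) = G x) (hHe : ∀ x, H (-x) = H x)
    (h : ∀ s t, 0 < s → 0 < t → F s ^ (1 - lam) * G t ^ lam ≤ H (s ^ (1 - lam) * t ^ lam)) :
    (∫⁻ x, F x) ^ (1 - lam) * (∫⁻ x, G x) ^ lam ≤ ∫⁻ x, H x := by
  have h1' : 0 < 1 - lam := by linarith
  rw [lintegral_even hFe, lintegral_even hGe, lintegral_even hHe,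
    ENNReal.mul_rpow_of_nonneg _ _ h1'.le, ENNReal.mul_rpow_of_nonneg _ _ h0.le]
  have e : (2 : ℝ≥0∞) ^ (1 - lam) * 2 ^ lam = 2 := by
    rw [← ENNReal.rpow_add _ _ (by simp) (by simp)]; simp
  calc _ = ((2 : ℝ≥0∞) ^ (1 - lam) * 2 ^ lam) * ((∫⁻ x in Ioi (0 : ℝ), F x) ^ (1 - lam) *
        (∫⁻ x in Ioi (0 : ℝ), G x) ^ lam) := by ring
    _ ≤ _ := by rw [e]; exact mul_le_mul' le_rfl (pl_mul h0 h1 hF hG hH h)

theorem symm_eq_cons {k : ℕ} (s : ℝ) (y : Fin k → ℝ) :
    (MeasurableEquiv.piFinSuccAbove (fun _ : Fin (k + 1) => ℝ) 0).symm (s, y) = Fin.cons s y := by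
  rw [← Fin.insertNth_zero']
  rfl

theorem lintegral_fin_succ {k : ℕ} {F : (Fin (k + 1) → ℝ) → ℝ≥0∞} (hF : Measurable F) :
    ∫⁻ y, F y = ∫⁻ s : ℝ, ∫⁻ y : Fin k → ℝ, F (Fin.cons s y) := by
  have hmp := (volume_preserving_piFinSuccAbove (fun _ : Fin (k + 1) => ℝ) 0).symm
  rw [← hmp.lintegral_comp hF]
  rw [Measure.volume_eq_prod, lintegral_prod]
  · simp only [symm_eq_cons]
  · exact (hF.comp (MeasurableEquiv.measurable _)).aemeasurable

theorem measurable_cons {k : ℕ} {F : (Fin (k + 1) → ℝ) → ℝ≥0∞} (hF : Measurable F) :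
    Measurable fun p : ℝ × (Fin k → ℝ) => F (Fin.cons p.1 p.2) := by
  have := hF.comp (MeasurableEquiv.piFinSuccAbove (fun _ : Fin (k + 1) => ℝ) 0).symm.measurable
  have e : (fun p : ℝ × (Fin k → ℝ) => F (Fin.cons p.1 p.2)) =
      F ∘ (MeasurableEquiv.piFinSuccAbove (fun _ : Fin (k + 1) => ℝ) 0).symm := by
    funext p
    simp only [Function.comp]
    rw [← symm_eq_cons]
  rw [e]
  exact this

theorem pl_pi {lam : ℝ} (h0 : 0 < lam) (h1 : lam < 1) (k : ℕ) :
    ∀ {F G H : (Fin k → ℝ) → ℝ≥0∞}, Measurable F → Measurable G → Measurable H →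
    (∀ y, F (fun i => |y i|) = F y) → (∀ y, G (fun i => |y i|) = G y) →
    (∀ y, H (fun i => |y i|) = H y) →
    (∀ s t : Fin k → ℝ, (∀ i, 0 < s i) → (∀ i, 0 < t i) →
      F s ^ (1 - lam) * G t ^ lam ≤ H (fun i => s i ^ (1 - lam) * t i ^ lam)) →
    (∫⁻ x, F x) ^ (1 - lam) * (∫⁻ x, G x) ^ lam ≤ ∫⁻ x, H x := by
  induction k with
  | zero =>
    intro F G H hF hG hH hFe hGe hHe h
    have e : ∀ F : (Fin 0 → ℝ) → ℝ≥0∞, ∫⁻ x, F x = F (fun i => i.elim0) := by
      intro F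
      have : ∀ x, F x = F (fun i => i.elim0) := fun x => congrArg F (Subsingleton.elim _ _)
      calc ∫⁻ x, F x = ∫⁻ x : Fin 0 → ℝ, F (fun i => i.elim0) := lintegral_congr this
        _ = _ := by
          rw [lintegral_const, Measure.volume_pi_eq_dirac (fun i => i.elim0)]
          simp
    rw [e, e, e]
    refine (h _ _ (fun i => i.elim0) (fun i => i.elim0)).trans (le_of_eq ?_)
    exact congrArg H (Subsingleton.elim _ _)
  | succ k ih =>
    intro F G H hF hG hH hFe hGe hHe h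
    rw [lintegral_fin_succ hF, lintegral_fin_succ hG, lintegral_fin_succ hH]
    have cons_abs : ∀ (s : ℝ) (y : Fin k → ℝ),
        (fun i => |(Fin.cons s y : Fin (k + 1) → ℝ) i|) = Fin.cons |s| (fun i => |y i|) := by
      intro s y
      funext i
      refine Fin.cases ?_ (fun i => ?_) i <;> simp
    have ev : ∀ {F : (Fin (k + 1) → ℝ) → ℝ≥0∞}, (∀ y, F (fun i => |y i|) = F y) →
        ∀ s : ℝ, (∫⁻ y : Fin k → ℝ, F (Fin.cons (-s) y)) = ∫⁻ y : Fin k → ℝ, F (Fin.cons s y) := by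
      intro F hFe s
      refine lintegral_congr fun y => ?_
      rw [← hFe, ← hFe (Fin.cons s y), cons_abs, cons_abs, abs_neg]
    refine pl_mul_even h0 h1 (measurable_cons hF).lintegral_prod_right'
      (measurable_cons hG).lintegral_prod_right' (measurable_cons hH).lintegral_prod_right'
      (ev hFe) (ev hGe) (ev hHe) fun s t hs ht => ?_
    have hst : 0 < s ^ (1 - lam) * t ^ lam := by positivity
    refine ih ((measurable_cons hF).comp measurable_prodMk_left)
      ((measurable_cons hG).comp measurable_prodMk_left)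
      ((measurable_cons hH).comp measurable_prodMk_left) ?_ ?_ ?_ ?_
    · intro y
      rw [← hFe (Fin.cons s y), cons_abs, abs_of_pos hs]
    · intro y
      rw [← hGe (Fin.cons t y), cons_abs, abs_of_pos ht]
    · intro y
      rw [← hHe (Fin.cons _ y), cons_abs, abs_of_pos hst]
    · intro y z hy hz
      have := h (Fin.cons s y) (Fin.cons t z) (fun i => by refine Fin.cases ?_ (fun i => ?_) i <;> simp [hs, hy])
        (fun i => by refine Fin.cases ?_ (fun i => ?_) i <;> simp [ht, hz])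
      refine this.trans (le_of_eq (congrArg H ?_))
      funext i
      refine Fin.cases ?_ (fun i => ?_) i <;> simp

end Vale.Agent.P227
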