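import Vale.Agent.P227.PL

open MeasureTheory Set Pointwise
open scoped ENNReal

namespace Vale.Agent.P227

/-- sections inequality implies measure inequality -/
theorem prod_meas_ge {K L M : Set (ℝ × ℝ)} (hK : MeasurableSet K) (hL : MeasurableSet L)
    (hM : MeasurableSet M)
    (h : ∀ s : ℝ, volume (Prod.mk s ⁻¹' K) + volume (Prod.mk s ⁻¹' L) ≤
      volume (Prod.mk s ⁻¹' M)) : volume K + volume L ≤ volume M := by
  rw [Measure.volume_eq_prod, Measure.prod_apply hK, Measure.prod_apply hL,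
    Measure.prod_apply hM, ← lintegral_add_left (measurable_measure_prodMk_left hK)]
  exact lintegral_mono h

def scaleMap (a : ℝ) : ℝ × ℝ →ₗ[ℝ] ℝ × ℝ :=
  LinearMap.prodMap (a • LinearMap.id) LinearMap.id

theorem scaleMap_apply (a : ℝ) (p : ℝ × ℝ) : scaleMap a p = (a * p.1, p.2) := by
  simp [scaleMap]

theorem det_scaleMap (a : ℝ) : LinearMap.det (scaleMap a) = a := by
  rw [scaleMap, LinearMap.det_prodMap]
  simp

theorem vol_scale {a : ℝ} (ha : 0 < a) (K : Set (ℝ × ℝ)) :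
    volume (scaleMap a ⁻¹' K) = ENNReal.ofReal a⁻¹ * volume K := by
  rw [Measure.addHaar_preimage_linearMap volume (by rw [det_scaleMap]; exact ha.ne')]
  rw [det_scaleMap, abs_of_pos (inv_pos.2 ha)]

/-- planar Bonnesen inequality for the first coordinate -/
theorem bonnesen_fst {K L M : Set (ℝ × ℝ)} (hK : MeasurableSet K) (hL : MeasurableSet L)
    (hM : MeasurableSet M) {w w' : ℝ} (hw : 0 < w) (hw' : 0 < w')
    (hKw : ∀ x ∈ K, |x.1| ≤ w) (hLw : ∀ x ∈ L, |x.1| ≤ w')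
    (hKp : ∀ s : ℝ, |s| ≤ 1 → ∃ y, (s * w, y) ∈ K) (hLp : ∀ s : ℝ, |s| ≤ 1 → ∃ y, (s * w', y) ∈ L)
    (hsum : K + L ⊆ M) :
    ENNReal.ofReal w⁻¹ * volume K + ENNReal.ofReal w'⁻¹ * volume L ≤
      ENNReal.ofReal (w + w')⁻¹ * volume M := by
  rw [← vol_scale hw, ← vol_scale hw', ← vol_scale (add_pos hw hw')]
  have hm : ∀ a, Measurable (scaleMap a) := fun a =>
    (LinearMap.continuous_of_finiteDimensional (scaleMap a)).measurable
  have hK' := hm w hK
  have hL' := hm w' hL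
  have hM' := hm (w + w') hM
  refine prod_meas_ge hK' hL' hM' fun s => ?_
  by_cases hs : |s| ≤ 1
  · refine bm_one_meas (measurable_prodMk_left hK') (measurable_prodMk_left hL') ?_ ?_ ?_
    · obtain ⟨y, hy⟩ := hKp s hs
      exact ⟨y, by simpa [scaleMap_apply, mul_comm] using hy⟩
    · obtain ⟨y, hy⟩ := hLp s hs
      exact ⟨y, by simpa [scaleMap_apply, mul_comm] using hy⟩
    · intro z hz
      obtain ⟨x, hx, y, hy, rfl⟩ := Set.mem_add.1 hz
      simp only [mem_preimage, scaleMap_apply] at hx hy ⊢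
      apply hsum
      have := Set.add_mem_add hx hy
      simpa [add_mul] using this
  · have e1 : Prod.mk s ⁻¹' (scaleMap w ⁻¹' K) = ∅ := by
      ext y
      simp only [mem_preimage, scaleMap_apply, mem_empty_iff_false, iff_false]
      intro hy
      have := hKw _ hy
      simp only [abs_mul, abs_of_pos hw] at this
      exact hs (le_of_mul_le_mul_left (by simpa using this) hw)
    have e2 : Prod.mk s ⁻¹' (scaleMap w' ⁻¹' L) = ∅ := by
      ext y
      simp only [mem_preimage, scaleMap_apply, mem_empty_iff_false, iff_false]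
      intro hy
      have := hLw _ hy
      simp only [abs_mul, abs_of_pos hw'] at this
      exact hs (le_of_mul_le_mul_left (by simpa using this) hw')
    rw [e1, e2]; simp

theorem exists_equiv_fst (f : ℝ × ℝ →ₗ[ℝ] ℝ) (hf : f ≠ 0) :
    ∃ T : (ℝ × ℝ) ≃ₗ[ℝ] (ℝ × ℝ), ∀ x, (T x).1 = f x := by
  have hfx : ∀ x : ℝ × ℝ, f x = f (1, 0) * x.1 + f (0, 1) * x.2 := by
    intro x
    have : x = x.1 • ((1 : ℝ), (0 : ℝ)) + x.2 • ((0 : ℝ), (1 : ℝ)) := by ext <;> simp
    conv_lhs => rw [this]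
    rw [map_add, map_smul, map_smul]; simp [mul_comm]
  set a := f (1, 0)
  set b := f (0, 1)
  by_cases ha : a = 0
  · have hb : b ≠ 0 := by
      intro hb
      apply hf
      ext <;> simp [a, b] at ha hb ⊢ <;> assumption
    refine ⟨{ toFun := fun x => (b * x.2, x.1), invFun := fun x => (x.2, x.1 / b),
              map_add' := ?_, map_smul' := ?_, left_inv := ?_, right_inv := ?_ }, ?_⟩
    · intro x y; ext <;> simp; ring
    · intro c x; ext <;> simp; ring
    · intro x; ext <;> simp; field_simp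
    · intro x; ext <;> simp; field_simp
    · intro x; rw [hfx, ha]; simp
  · refine ⟨{ toFun := fun x => (a * x.1 + b * x.2, x.2),
              invFun := fun x => ((x.1 - b * x.2) / a, x.2),
              map_add' := ?_, map_smul' := ?_, left_inv := ?_, right_inv := ?_ }, ?_⟩
    · intro x y; ext <;> simp; ring
    · intro c x; ext <;> simp; ring
    · intro x; ext <;> simp; field_simp
    · intro x; ext <;> simp; field_simp; ring
    · intro x; rw [hfx]; simp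

theorem smul_mem_of_symm {E : Type*} [AddCommGroup E] [Module ℝ E] {K : Set E}
    (hKc : Convex ℝ K) (hKs : ∀ x ∈ K, -x ∈ K) {x : E} (hx : x ∈ K) {s : ℝ} (hs : |s| ≤ 1) :
    s • x ∈ K := by
  have h := abs_le.1 hs
  have : s • x = ((1 + s) / 2) • x + ((1 - s) / 2) • (-x) := by
    rw [smul_neg, ← sub_eq_add_neg, ← sub_smul]; congr 1; ring
  rw [this]
  exact hKc hx (hKs x hx) (by linarith [h.1]) (by linarith [h.2]) (by ring)

theorem bonnesen_enn {K L M : Set (ℝ × ℝ)} (f : ℝ × ℝ →ₗ[ℝ] ℝ) (hK : IsCompact K)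
    (hL : IsCompact L) (hM : MeasurableSet M) (hKc : Convex ℝ K) (hLc : Convex ℝ L)
    (hKs : ∀ x ∈ K, -x ∈ K) (hLs : ∀ x ∈ L, -x ∈ L) {w w' : ℝ} (hw : 0 < w) (hw' : 0 < w')
    (hKw : ∀ x ∈ K, |f x| ≤ w) (hLw : ∀ x ∈ L, |f x| ≤ w')
    (hKp : ∃ x ∈ K, f x = w) (hLp : ∃ x ∈ L, f x = w') (hsum : K + L ⊆ M) :
    ENNReal.ofReal w⁻¹ * volume K + ENNReal.ofReal w'⁻¹ * volume L ≤
      ENNReal.ofReal (w + w')⁻¹ * volume M := by
  obtain ⟨x0, hx0, hfx0⟩ := hKp
  obtain ⟨y0, hy0, hfy0⟩ := hLp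
  have hf : f ≠ 0 := by
    rintro rfl
    simp at hfx0
    exact hw.ne hfx0
  obtain ⟨T, hT⟩ := exists_equiv_fst f hf
  have hTc : Continuous T := LinearMap.continuous_of_finiteDimensional (T : ℝ × ℝ →ₗ[ℝ] ℝ × ℝ)
  have hTsc : Continuous T.symm :=
    LinearMap.continuous_of_finiteDimensional (T.symm : ℝ × ℝ →ₗ[ℝ] ℝ × ℝ)
  have hMm : MeasurableSet (T '' M) := by
    have : T '' M = T.symm ⁻¹' M := by
      ext x
      constructor
      · rintro ⟨y, hy, rfl⟩; simpa using hy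
      · intro hx; exact ⟨T.symm x, hx, by simp⟩
    rw [this]
    exact hTsc.measurable hM
  have key := bonnesen_fst (K := T '' K) (L := T '' L) (M := T '' M) (hK.image hTc).measurableSet
    (hL.image hTc).measurableSet hMm hw hw' ?_ ?_ ?_ ?_ ?_
  · have hv : ∀ S : Set (ℝ × ℝ), volume (T '' S) =
        ENNReal.ofReal |LinearMap.det (T : ℝ × ℝ →ₗ[ℝ] ℝ × ℝ)| * volume S := fun S =>
      Measure.addHaar_image_linearMap volume (T : ℝ × ℝ →ₗ[ℝ] ℝ × ℝ) S
    have hdet : LinearMap.det (T : ℝ × ℝ →ₗ[ℝ] ℝ × ℝ) ≠ 0 := (LinearEquiv.isUnit_det' T).ne_zero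
    rw [hv, hv, hv] at key
    set c := ENNReal.ofReal |LinearMap.det (T : ℝ × ℝ →ₗ[ℝ] ℝ × ℝ)|
    have hc0 : c ≠ 0 := by simp [c, hdet]
    have hct : c ≠ ∞ := ENNReal.ofReal_ne_top
    have e : ENNReal.ofReal w⁻¹ * (c * volume K) + ENNReal.ofReal w'⁻¹ * (c * volume L) =
        c * (ENNReal.ofReal w⁻¹ * volume K + ENNReal.ofReal w'⁻¹ * volume L) := by ring
    rw [e, mul_left_comm] at key
    exact (ENNReal.mul_le_mul_iff_right hc0 hct).1 key
  · rintro _ ⟨x, hx, rfl⟩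
    rw [hT]; exact hKw x hx
  · rintro _ ⟨x, hx, rfl⟩
    rw [hT]; exact hLw x hx
  · intro s hs
    refine ⟨(T (s • x0)).2, ⟨s • x0, smul_mem_of_symm hKc hKs hx0 hs, ?_⟩⟩
    ext
    · rw [hT]; simp [hfx0]
    · rfl
  · intro s hs
    refine ⟨(T (s • y0)).2, ⟨s • y0, smul_mem_of_symm hLc hLs hy0 hs, ?_⟩⟩
    ext
    · rw [hT]; simp [hfy0]
    · rfl
  · rintro _ hz
    obtain ⟨_, ⟨x, hx, rfl⟩, _, ⟨y, hy, rfl⟩, rfl⟩ := Set.mem_add.1 hz
    exact ⟨x + y, hsum (Set.add_mem_add hx hy), map_add T x y⟩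

/-- area -/
noncomputable def ar (K : Set (ℝ × ℝ)) : ℝ := (volume K).toReal

theorem bonnesen {K L M : Set (ℝ × ℝ)} (f : ℝ × ℝ →ₗ[ℝ] ℝ) (hK : IsCompact K)
    (hL : IsCompact L) (hM : IsCompact M) (hKc : Convex ℝ K) (hLc : Convex ℝ L)
    (hKs : ∀ x ∈ K, -x ∈ K) (hLs : ∀ x ∈ L, -x ∈ L) {w w' : ℝ} (hw : 0 < w) (hw' : 0 < w')
    (hKw : ∀ x ∈ K, |f x| ≤ w) (hLw : ∀ x ∈ L, |f x| ≤ w')
    (hKp : ∃ x ∈ K, f x = w) (hLp : ∃ x ∈ L, f x = w') (hsum : K + L ⊆ M) :
    (w + w') * (ar K / w + ar L / w') ≤ ar M := by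
  have key := bonnesen_enn f hK hL hM.measurableSet hKc hLc hKs hLs hw hw' hKw hLw hKp hLp hsum
  have hK' := hK.measure_lt_top (μ := volume)
  have hL' := hL.measure_lt_top (μ := volume)
  have hM' := hM.measure_lt_top (μ := volume)
  have h2 := ENNReal.toReal_mono (ENNReal.mul_ne_top ENNReal.ofReal_ne_top hM'.ne) key
  rw [ENNReal.toReal_add (ENNReal.mul_ne_top ENNReal.ofReal_ne_top hK'.ne)
    (ENNReal.mul_ne_top ENNReal.ofReal_ne_top hL'.ne), ENNReal.toReal_mul, ENNReal.toReal_mul,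
    ENNReal.toReal_mul, ENNReal.toReal_ofReal (by positivity),
    ENNReal.toReal_ofReal (by positivity), ENNReal.toReal_ofReal (by positivity)] at h2
  change w⁻¹ * ar K + w'⁻¹ * ar L ≤ (w + w')⁻¹ * ar M at h2
  have hpos : 0 < w + w' := by positivity
  calc (w + w') * (ar K / w + ar L / w') = (w + w') * (w⁻¹ * ar K + w'⁻¹ * ar L) := by
        rw [div_eq_inv_mul, div_eq_inv_mul]
    _ ≤ (w + w') * ((w + w')⁻¹ * ar M) := mul_le_mul_of_nonneg_left h2 hpos.le
    _ = ar M := by rw [← mul_assoc, mul_inv_cancel₀ hpos.ne', one_mul]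

end Vale.Agent.P227
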