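import Vale.Agent.P227.Planar1

open MeasureTheory Set Pointwise
open scoped ENNReal

namespace Vale.Agent.P227

variable {ι : Type} [Fintype ι]

def Pg (φ : ι → ℝ × ℝ →ₗ[ℝ] ℝ) (h : ι → ℝ) : Set (ℝ × ℝ) := {x | ∀ i, |φ i x| ≤ h i}

def Sep (φ : ι → ℝ × ℝ →ₗ[ℝ] ℝ) : Prop := ∀ x, (∀ i, φ i x = 0) → x = 0

omit [Fintype ι] in
theorem Pg_convex (φ : ι → ℝ × ℝ →ₗ[ℝ] ℝ) (h : ι → ℝ) : Convex ℝ (Pg φ h) := by
  intro x hx y hy a b ha hb hab i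
  rw [map_add, map_smul, map_smul, smul_eq_mul, smul_eq_mul]
  calc |a * φ i x + b * φ i y| ≤ |a * φ i x| + |b * φ i y| := abs_add_le _ _
    _ = a * |φ i x| + b * |φ i y| := by rw [abs_mul, abs_mul, abs_of_nonneg ha, abs_of_nonneg hb]
    _ ≤ a * h i + b * h i := add_le_add (mul_le_mul_of_nonneg_left (hx i) ha)
        (mul_le_mul_of_nonneg_left (hy i) hb)
    _ = h i := by rw [← add_mul, hab, one_mul]

omit [Fintype ι] in
theorem Pg_symm (φ : ι → ℝ × ℝ →ₗ[ℝ] ℝ) (h : ι → ℝ) : ∀ x ∈ Pg φ h, -x ∈ Pg φ h := by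
  intro x hx i
  rw [map_neg, abs_neg]
  exact hx i

omit [Fintype ι] in
theorem Pg_closed (φ : ι → ℝ × ℝ →ₗ[ℝ] ℝ) (h : ι → ℝ) : IsClosed (Pg φ h) := by
  have : Pg φ h = ⋂ i, {x | |φ i x| ≤ h i} := by
    ext x; simp [Pg]
  rw [this]
  refine isClosed_iInter fun i => ?_
  have : Continuous (φ i) := LinearMap.continuous_of_finiteDimensional _
  exact isClosed_le (this.abs) continuous_const

theorem Pg_compact {φ : ι → ℝ × ℝ →ₗ[ℝ] ℝ} (hs : Sep φ) (h : ι → ℝ) : IsCompact (Pg φ h) := by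
  refine Metric.isCompact_of_isClosed_isBounded (Pg_closed φ h) ?_
  set Φ : ℝ × ℝ →ₗ[ℝ] (ι → ℝ) := LinearMap.pi φ
  have hinj : LinearMap.ker Φ = ⊥ := by
    rw [LinearMap.ker_eq_bot']
    intro x hx
    exact hs x fun i => congrFun hx i
  obtain ⟨K, hK, hanti⟩ := Φ.exists_antilipschitzWith hinj
  have hsub : Pg φ h ⊆ Φ ⁻¹' (Metric.closedBall 0 (∑ i, |h i|)) := by
    intro x hx
    simp only [mem_preimage, mem_closedBall_zero_iff]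
    rw [pi_norm_le_iff_of_nonneg (Finset.sum_nonneg fun i _ => abs_nonneg _)]
    intro i
    have h1 : |φ i x| ≤ h i := hx i
    calc ‖Φ x i‖ = |φ i x| := rfl
      _ ≤ |h i| := h1.trans (le_abs_self _)
      _ ≤ ∑ j, |h j| := Finset.single_le_sum (f := fun j => |h j|) (fun j _ => abs_nonneg _) (Finset.mem_univ i)
  exact (hanti.isBounded_preimage Metric.isBounded_closedBall).subset hsub

omit [Fintype ι] in
theorem Pg_mono (φ : ι → ℝ × ℝ →ₗ[ℝ] ℝ) {h h' : ι → ℝ} (hh : ∀ i, h i ≤ h' i) :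
    Pg φ h ⊆ Pg φ h' := fun _ hx i => (hx i).trans (hh i)

omit [Fintype ι] in
theorem Pg_add (φ : ι → ℝ × ℝ →ₗ[ℝ] ℝ) (h h' : ι → ℝ) :
    Pg φ h + Pg φ h' ⊆ Pg φ (h + h') := by
  intro z hz
  obtain ⟨x, hx, y, hy, rfl⟩ := Set.mem_add.1 hz
  intro i
  rw [map_add]
  exact (abs_add_le _ _).trans (add_le_add (hx i) (hy i))

omit [Fintype ι] in
theorem Pg_smul (φ : ι → ℝ × ℝ →ₗ[ℝ] ℝ) (h : ι → ℝ) {c : ℝ} (hc : 0 < c) :
    Pg φ (c • h) = c • Pg φ h := by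
  ext x
  rw [mem_smul_set_iff_inv_smul_mem₀ hc.ne']
  simp only [Pg, mem_ofPred_eq, Pi.smul_apply, smul_eq_mul, map_smul, abs_mul,
    abs_of_pos (inv_pos.2 hc)]
  refine forall_congr' fun i => ?_
  rw [inv_mul_le_iff₀ hc]

omit [Fintype ι] in
theorem ar_Pg_smul (φ : ι → ℝ × ℝ →ₗ[ℝ] ℝ) (h : ι → ℝ) {c : ℝ} (hc : 0 < c) :
    ar (Pg φ (c • h)) = c ^ 2 * ar (Pg φ h) := by
  rw [Pg_smul φ h hc, ar, Measure.addHaar_smul, ENNReal.toReal_mul,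
    ENNReal.toReal_ofReal (abs_nonneg _)]
  simp [ar]

theorem ar_pos {φ : ι → ℝ × ℝ →ₗ[ℝ] ℝ} (hs : Sep φ) {h : ι → ℝ} (hh : ∀ i, 0 < h i) :
    0 < ar (Pg φ h) := by
  refine ENNReal.toReal_pos ?_ ((Pg_compact hs h).measure_lt_top).ne
  have hU : IsOpen (⋂ i, {x | |φ i x| < h i}) := by
    refine isOpen_iInter_of_finite fun i => ?_
    have : Continuous (φ i) := LinearMap.continuous_of_finiteDimensional _
    exact isOpen_lt (this.abs) continuous_const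
  have h0 : (0 : ℝ × ℝ) ∈ (⋂ i, {x | |φ i x| < h i}) := by
    simp only [mem_iInter, mem_ofPred_eq, map_zero, abs_zero]
    exact hh
  have hpos := hU.measure_pos volume ⟨0, h0⟩
  refine (lt_of_lt_of_le hpos (measure_mono ?_)).ne'
  intro x hx i
  simp only [mem_iInter, mem_ofPred_eq] at hx
  exact (hx i).le

theorem ar_mono {φ : ι → ℝ × ℝ →ₗ[ℝ] ℝ} (hs : Sep φ) {h h' : ι → ℝ} (hh : ∀ i, h i ≤ h' i) :
    ar (Pg φ h) ≤ ar (Pg φ h') :=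
  ENNReal.toReal_mono ((Pg_compact hs h').measure_lt_top).ne (measure_mono (Pg_mono φ hh))

/-- support number -/
noncomputable def sn (φ : ι → ℝ × ℝ →ₗ[ℝ] ℝ) (h : ι → ℝ) (i : ι) : ℝ :=
  sSup ((fun x => |φ i x|) '' Pg φ h)

omit [Fintype ι] in
theorem zero_mem_Pg {φ : ι → ℝ × ℝ →ₗ[ℝ] ℝ} {h : ι → ℝ} (hh : ∀ i, 0 < h i) :
    (0 : ℝ × ℝ) ∈ Pg φ h := by
  intro i; simp [(hh i).le]

omit [Fintype ι] in
theorem bdd_sn {φ : ι → ℝ × ℝ →ₗ[ℝ] ℝ} (h : ι → ℝ) (i : ι) :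
    BddAbove ((fun x => |φ i x|) '' Pg φ h) := by
  refine ⟨h i, ?_⟩
  rintro _ ⟨x, hx, rfl⟩
  exact hx i

omit [Fintype ι] in
theorem le_sn {φ : ι → ℝ × ℝ →ₗ[ℝ] ℝ} {h : ι → ℝ} (i : ι) {x : ℝ × ℝ} (hx : x ∈ Pg φ h) :
    |φ i x| ≤ sn φ h i := le_csSup (bdd_sn h i) ⟨x, hx, rfl⟩

omit [Fintype ι] in
theorem sn_le {φ : ι → ℝ × ℝ →ₗ[ℝ] ℝ} {h : ι → ℝ} (hh : ∀ i, 0 < h i) (i : ι) :
    sn φ h i ≤ h i := by
  refine csSup_le ⟨_, 0, zero_mem_Pg hh, rfl⟩ ?_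
  rintro _ ⟨x, hx, rfl⟩
  exact hx i

theorem sn_nonneg {φ : ι → ℝ × ℝ →ₗ[ℝ] ℝ} {h : ι → ℝ} (hh : ∀ i, 0 < h i) (i : ι) :
    0 ≤ sn φ h i := (abs_nonneg _).trans (le_sn i (zero_mem_Pg hh))

theorem exists_sn {φ : ι → ℝ × ℝ →ₗ[ℝ] ℝ} (hs : Sep φ) {h : ι → ℝ} (hh : ∀ i, 0 < h i) (i : ι) :
    ∃ x ∈ Pg φ h, φ i x = sn φ h i := by
  have hc : Continuous (fun x => |φ i x|) :=
    (LinearMap.continuous_of_finiteDimensional (φ i)).abs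
  have hcpt := (Pg_compact hs h).image hc
  obtain ⟨x, hx, hxe⟩ := hcpt.sSup_mem ⟨_, 0, zero_mem_Pg hh, rfl⟩
  simp only at hxe
  rcases abs_choice (φ i x) with h1 | h1
  · exact ⟨x, hx, by rw [← h1]; exact hxe⟩
  · refine ⟨-x, Pg_symm φ h x hx, ?_⟩
    rw [map_neg, ← h1]; exact hxe

theorem sn_pos {φ : ι → ℝ × ℝ →ₗ[ℝ] ℝ} (hs : Sep φ) {h : ι → ℝ} (hh : ∀ i, 0 < h i) {i : ι}
    (hi : φ i ≠ 0) : 0 < sn φ h i := by
  rcases (sn_nonneg (φ := φ) hh i).lt_or_eq with h1 | h1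
  · exact h1
  · exfalso
    have hz : Pg φ h ⊆ (LinearMap.ker (φ i) : Submodule ℝ (ℝ × ℝ)) := by
      intro x hx
      have := le_sn i hx
      rw [← h1] at this
      simpa using this
    have hne : LinearMap.ker (φ i) ≠ ⊤ := by
      intro ht
      exact hi (LinearMap.ker_eq_top.1 ht)
    have hzero := Measure.addHaar_submodule volume _ hne
    have := ar_pos hs hh
    have h3 : volume (Pg φ h) = 0 := measure_mono_null hz hzero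
    rw [ar, h3] at this
    simp at this

theorem bonnesen_Pg {φ : ι → ℝ × ℝ →ₗ[ℝ] ℝ} (hs : Sep φ) {h h' : ι → ℝ} (hh : ∀ i, 0 < h i)
    (hh' : ∀ i, 0 < h' i) {i : ι} (hi : φ i ≠ 0) {M : Set (ℝ × ℝ)} (hM : IsCompact M)
    (hsub : Pg φ h + Pg φ h' ⊆ M) :
    (sn φ h i + sn φ h' i) * (ar (Pg φ h) / sn φ h i + ar (Pg φ h') / sn φ h' i) ≤ ar M :=
  bonnesen (φ i) (Pg_compact hs h) (Pg_compact hs h') hM (Pg_convex φ h) (Pg_convex φ h')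
    (Pg_symm φ h) (Pg_symm φ h') (sn_pos hs hh hi) (sn_pos hs hh' hi) (fun _ hx => le_sn i hx)
    (fun _ hx => le_sn i hx) (exists_sn hs hh i) (exists_sn hs hh' i) hsub

/-- square root of area -/
noncomputable def Gg (φ : ι → ℝ × ℝ →ₗ[ℝ] ℝ) (h : ι → ℝ) : ℝ := Real.sqrt (ar (Pg φ h))

omit [Fintype ι] in
theorem exists_ne_zero {φ : ι → ℝ × ℝ →ₗ[ℝ] ℝ} (hs : Sep φ) : ∃ i, φ i ≠ 0 := by
  by_contra hcon
  push Not at hcon
  have := hs (1, 0) (fun i => by rw [hcon i]; simp)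
  simp at this

theorem aux_amgm (a b : ℝ) {w w' : ℝ} (hw : 0 < w) (hw' : 0 < w') :
    2 * a * b ≤ w' * a ^ 2 / w + w * b ^ 2 / w' := by
  have h5 : w' * a ^ 2 / w + w * b ^ 2 / w' - 2 * a * b = (w' * a - w * b) ^ 2 / (w * w') := by
    field_simp
    ring
  have h6 : 0 ≤ (w' * a - w * b) ^ 2 / (w * w') := by positivity
  linarith

theorem Gg_add {φ : ι → ℝ × ℝ →ₗ[ℝ] ℝ} (hs : Sep φ) {h h' : ι → ℝ} (hh : ∀ i, 0 < h i)
    (hh' : ∀ i, 0 < h' i) : Gg φ h + Gg φ h' ≤ Gg φ (h + h') := by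
  obtain ⟨i, hi⟩ := exists_ne_zero hs
  have key := bonnesen_Pg hs hh hh' hi (Pg_compact hs (h + h')) (Pg_add φ h h')
  have hw := sn_pos hs hh hi
  have hw' := sn_pos hs hh' hi
  have hA := ar_pos hs hh
  have hA' := ar_pos hs hh'
  set w := sn φ h i
  set w' := sn φ h' i
  set A := ar (Pg φ h)
  set A' := ar (Pg φ h')
  unfold Gg
  apply Real.le_sqrt_of_sq_le
  refine le_trans ?_ key
  have h1 : (Real.sqrt A) ^ 2 = A := Real.sq_sqrt hA.le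
  have h2 : (Real.sqrt A') ^ 2 = A' := Real.sq_sqrt hA'.le
  have h3 : (w + w') * (A / w + A' / w') = A + A' + (w' * A / w + w * A' / w') := by
    field_simp; ring
  rw [h3]
  have h4 : 2 * Real.sqrt A * Real.sqrt A' ≤ w' * A / w + w * A' / w' := by
    have := aux_amgm (Real.sqrt A) (Real.sqrt A') hw hw'
    rwa [h1, h2] at this
  nlinarith [h1, h2, h4]

omit [Fintype ι] in
theorem Gg_smul (φ : ι → ℝ × ℝ →ₗ[ℝ] ℝ) (h : ι → ℝ) {c : ℝ} (hc : 0 < c) :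
    Gg φ (c • h) = c * Gg φ h := by
  unfold Gg
  rw [ar_Pg_smul φ h hc, Real.sqrt_mul (by positivity), Real.sqrt_sq hc.le]

end Vale.Agent.P227
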