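import Vale.Agent.P227.Planar2

open MeasureTheory Set Pointwise
open scoped ENNReal

namespace Vale.Agent.P227

variable {ι : Type} [Fintype ι]

theorem Gg_mono {φ : ι → ℝ × ℝ →ₗ[ℝ] ℝ} (hs : Sep φ) {h h' : ι → ℝ} (hh : ∀ i, h i ≤ h' i) :
    Gg φ h ≤ Gg φ h' := Real.sqrt_le_sqrt (ar_mono hs hh)

theorem Gg_pos {φ : ι → ℝ × ℝ →ₗ[ℝ] ℝ} (hs : Sep φ) {h : ι → ℝ} (hh : ∀ i, 0 < h i) :
    0 < Gg φ h := Real.sqrt_pos.2 (ar_pos hs hh)

theorem exists_supergradient {φ : ι → ℝ × ℝ →ₗ[ℝ] ℝ} (hs : Sep φ) {h : ι → ℝ}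
    (hh : ∀ i, 0 < h i) : ∃ q : ι → ℝ, (∀ i, 0 ≤ q i) ∧ (∑ i, q i * h i = Gg φ h) ∧
      ∀ h' : ι → ℝ, (∀ i, 0 < h' i) → Gg φ h' ≤ ∑ i, q i * h' i := by
  classical
  set S : Set ((ι → ℝ) × ℝ) := {p | (∀ i, 0 < p.1 i) ∧ p.2 < Gg φ p.1} with hS
  have hconv : Convex ℝ S := by
    rintro ⟨h1, r1⟩ ⟨hp1, hr1⟩ ⟨h2, r2⟩ ⟨hp2, hr2⟩ a b ha hb hab
    simp only at hp1 hr1 hp2 hr2
    rcases ha.eq_or_lt with rfl | ha
    · have : b = 1 := by linarith
      subst this
      simpa [hS] using ⟨hp2, hr2⟩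
    rcases hb.eq_or_lt with rfl | hb
    · have : a = 1 := by linarith
      subst this
      simpa [hS] using ⟨hp1, hr1⟩
    refine ⟨fun i => ?_, ?_⟩
    · simp only [Prod.fst_add, Prod.smul_fst, Pi.add_apply, Pi.smul_apply, smul_eq_mul]
      exact add_pos (mul_pos ha (hp1 i)) (mul_pos hb (hp2 i))
    · simp only [Prod.fst_add, Prod.smul_fst, Prod.snd_add, Prod.smul_snd, smul_eq_mul]
      have := Gg_add hs (h := a • h1) (h' := b • h2) (fun i => mul_pos ha (hp1 i))
        (fun i => mul_pos hb (hp2 i))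
      rw [Gg_smul φ h1 ha, Gg_smul φ h2 hb] at this
      nlinarith [mul_lt_mul_of_pos_left hr1 ha, mul_lt_mul_of_pos_left hr2 hb]
  have hopen : IsOpen S := by
    have : S = ⋃ h0 : {h0 : ι → ℝ // ∀ i, 0 < h0 i},
        ({h' : ι → ℝ | ∀ i, h0.1 i < h' i} ×ˢ Iio (Gg φ h0.1)) := by
      ext ⟨h', r⟩
      simp only [hS, mem_ofPred_eq, mem_iUnion, mem_prod, mem_Iio, Subtype.exists]
      constructor
      · rintro ⟨hp, hr⟩
        have hG := Gg_pos hs hp
        obtain ⟨c, hc1, hc2⟩ : ∃ c : ℝ, max (r / Gg φ h') 0 < c ∧ c < 1 := by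
          refine exists_between (max_lt ?_ one_pos)
          rwa [div_lt_one hG]
        have hc0 : 0 < c := lt_of_le_of_lt (le_max_right _ _) hc1
        refine ⟨c • h', fun i => mul_pos hc0 (hp i), fun i => ?_, ?_⟩
        · simp only [Pi.smul_apply, smul_eq_mul]
          nlinarith [hp i]
        · rw [Gg_smul φ h' hc0]
          have := lt_of_le_of_lt (le_max_left _ _) hc1
          rwa [div_lt_iff₀ hG] at this
      · rintro ⟨h0, hp0, hlt, hr⟩
        exact ⟨fun i => (hp0 i).trans (hlt i), hr.trans_le (Gg_mono hs fun i => (hlt i).le)⟩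
    rw [this]
    refine isOpen_iUnion fun h0 => IsOpen.prod ?_ isOpen_Iio
    have : {h' : ι → ℝ | ∀ i, h0.1 i < h' i} = ⋂ i, {h' | h0.1 i < h' i} := by
      ext; simp
    rw [this]
    exact isOpen_iInter_of_finite fun i => isOpen_lt continuous_const (continuous_apply i)
  have hnot : (h, Gg φ h) ∉ S := by
    rintro ⟨_, h2⟩
    exact lt_irrefl _ h2
  obtain ⟨F, hF⟩ := geometric_hahn_banach_open_point hconv hopen hnot
  set c := F (0, 1) with hc
  set L : (ι → ℝ) → ℝ := fun h' => F (h', 0) with hL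
  have hFe : ∀ (h' : ι → ℝ) (r : ℝ), F (h', r) = L h' + r * c := by
    intro h' r
    have : ((h', r) : (ι → ℝ) × ℝ) = (h', 0) + r • ((0 : ι → ℝ), (1 : ℝ)) := by
      ext <;> simp
    rw [this, map_add, map_smul]; rfl
  have hcpos : 0 < c := by
    have := hF (h, Gg φ h - 1) ⟨hh, by simp⟩
    rw [hFe, hFe] at this
    linarith
  have hmain : ∀ h' : ι → ℝ, (∀ i, 0 < h' i) → L h' + Gg φ h' * c ≤ L h + Gg φ h * c := by
    intro h' hp
    by_contra hcon
    push Not at hcon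
    set d := (L h' + Gg φ h' * c - (L h + Gg φ h * c)) / c with hd
    have hdpos : 0 < d := div_pos (by linarith) hcpos
    have := hF (h', Gg φ h' - d) ⟨hp, by simp only; linarith⟩
    rw [hFe, hFe] at this
    have hdc : d * c = L h' + Gg φ h' * c - (L h + Gg φ h * c) := by
      rw [hd, div_mul_cancel₀ _ hcpos.ne']
    nlinarith
  have hLsmul : ∀ (t : ℝ) (h' : ι → ℝ), L (t • h') = t * L h' := by
    intro t h'
    simp only [hL]
    have : ((t • h', 0) : (ι → ℝ) × ℝ) = t • (h', 0) := by ext <;> simp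
    rw [this, map_smul, smul_eq_mul]
  have heq : L h + Gg φ h * c = 0 := by
    have h2 := hmain ((2 : ℝ) • h) (fun i => mul_pos two_pos (hh i))
    have h3 := hmain ((1 / 2 : ℝ) • h) (fun i => mul_pos (by norm_num) (hh i))
    rw [hLsmul, Gg_smul φ h two_pos] at h2
    rw [hLsmul, Gg_smul φ h (by norm_num)] at h3
    linarith
  set q : ι → ℝ := fun i => - L (Pi.single i 1) / c with hq
  have hLsum : ∀ h' : ι → ℝ, L h' = ∑ i, h' i * L (Pi.single i 1) := by
    intro h'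
    have e : h' = ∑ i, h' i • (Pi.single i (1 : ℝ) : ι → ℝ) := by
      funext j
      simp [Finset.sum_apply, Pi.single_apply]
    simp only [hL]
    have e2 : ((h', 0) : (ι → ℝ) × ℝ) = ∑ i, h' i • ((Pi.single i (1 : ℝ) : ι → ℝ), (0 : ℝ)) := by
      apply Prod.ext
      · rw [Prod.fst_sum]
        simp only [Prod.smul_fst]
        exact e
      · rw [Prod.snd_sum]
        simp
    conv_lhs => rw [e2]
    rw [map_sum]
    simp only [map_smul, smul_eq_mul]
  have hqsum : ∀ h' : ι → ℝ, ∑ i, q i * h' i = - L h' / c := by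
    intro h'
    rw [hLsum h', ← Finset.sum_neg_distrib, Finset.sum_div]
    refine Finset.sum_congr rfl fun i _ => ?_
    simp only [hq]
    ring
  have hfin : ∀ h' : ι → ℝ, (∀ i, 0 < h' i) → Gg φ h' ≤ ∑ i, q i * h' i := by
    intro h' hp
    rw [hqsum, le_div_iff₀ hcpos]
    have := hmain h' hp
    linarith
  have hfin0 : ∑ i, q i * h i = Gg φ h := by
    rw [hqsum, div_eq_iff hcpos.ne']
    linarith
  refine ⟨q, fun i => ?_, hfin0, hfin⟩
  have h4 := hfin (h + Pi.single i 1) (fun j => by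
    simp only [Pi.add_apply]
    have : (0 : ℝ) ≤ (Pi.single i (1 : ℝ) : ι → ℝ) j := by
      by_cases hij : j = i
      · subst hij; simp
      · simp [hij]
    linarith [hh j])
  have h5 : Gg φ h ≤ Gg φ (h + Pi.single i 1) := Gg_mono hs fun j => by
    simp only [Pi.add_apply]
    have : (0 : ℝ) ≤ (Pi.single i (1 : ℝ) : ι → ℝ) j := by
      by_cases hij : j = i
      · subst hij; simp
      · simp [hij]
    linarith
  have h6 : ∑ j, q j * (h + Pi.single i 1 : ι → ℝ) j = ∑ j, q j * h j + q i := by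
    simp only [Pi.add_apply, mul_add, Finset.sum_add_distrib]
    congr 1
    simp [Pi.single_apply]
  rw [h6, hfin0] at h4
  linarith

end Vale.Agent.P227
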