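import Vale.Agent.P227.Planar3

open MeasureTheory Set Pointwise
open scoped ENNReal

namespace Vale.Agent.P227

variable {ι : Type} [Fintype ι]

theorem sn_eq_of_pos {φ : ι → ℝ × ℝ →ₗ[ℝ] ℝ} {h : ι → ℝ} (hh : ∀ i, 0 < h i)
    {q : ι → ℝ} (hq1 : ∑ i, q i * h i = Gg φ h)
    (hq2 : ∀ h' : ι → ℝ, (∀ i, 0 < h' i) → Gg φ h' ≤ ∑ i, q i * h' i) {i : ι} (hqi : 0 < q i) :
    sn φ h i = h i := by
  classical
  rcases (sn_le (φ := φ) hh i).lt_or_eq with hlt | heq
  · exfalso
    set v := max (sn φ h i) (h i / 2) with hv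
    have hv1 : v < h i := max_lt hlt (by linarith [hh i])
    have hv0 : 0 < v := lt_of_lt_of_le (by linarith [hh i] : 0 < h i / 2) (le_max_right _ _)
    set h' := Function.update h i v with hh'
    have hpos : ∀ j, 0 < h' j := by
      intro j
      by_cases hij : j = i
      · subst hij; simp [hh', hv0]
      · simp [hh', hij, hh j]
    have hle : ∀ j, h' j ≤ h j := by
      intro j
      by_cases hij : j = i
      · subst hij; simp [hh', hv1.le]
      · simp [hh', hij]
    have hPeq : Pg φ h' = Pg φ h := by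
      apply Subset.antisymm (Pg_mono φ hle)
      intro x hx j
      by_cases hij : j = i
      · subst hij
        simp only [hh', Function.update_self]
        exact (le_sn j hx).trans (le_max_left _ _)
      · simp only [hh', Function.update_of_ne hij]
        exact hx j
    have h1 := hq2 h' hpos
    have h2 : Gg φ h' = Gg φ h := by rw [Gg, Gg, hPeq]
    have h3 : ∑ j, q j * h' j = ∑ j, q j * h j - q i * (h i - v) := by
      rw [eq_sub_iff_add_eq]
      have : q i * (h i - v) = ∑ j, (if j = i then q i * (h i - v) else 0) := by simp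
      rw [this, ← Finset.sum_add_distrib]
      refine Finset.sum_congr rfl fun j _ => ?_
      by_cases hij : j = i
      · subst hij; simp [hh']; ring
      · simp [hh', hij]
    rw [h2, h3, hq1] at h1
    have : 0 < q i * (h i - v) := mul_pos hqi (by linarith)
    linarith
  · exact heq

theorem coeff_le {a b c d : ℝ} (h : ∀ s : ℝ, 0 < s → s * a + s ^ 2 * b ≤ s * c + s ^ 2 * d) :
    a ≤ c := by
  by_contra hcon
  push Not at hcon
  have h1 : ∀ s : ℝ, 0 < s → a - c ≤ s * (d - b) := by
    intro s hs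
    have := h s hs
    have h2 : s * (a - c) ≤ s * (s * (d - b)) := by nlinarith
    exact le_of_mul_le_mul_left h2 hs
  rcases le_or_gt (d - b) 0 with hdb | hdb
  · have := h1 1 one_pos
    linarith
  · have := h1 ((a - c) / (2 * (d - b))) (div_pos (by linarith) (by linarith))
    have e : (a - c) / (2 * (d - b)) * (d - b) = (a - c) / 2 := by
      field_simp
    rw [e] at this
    linarith

theorem sn_smul {φ : ι → ℝ × ℝ →ₗ[ℝ] ℝ} (hs : Sep φ) {h : ι → ℝ} (hh : ∀ i, 0 < h i) (i : ι)
    {c : ℝ} (hc : 0 < c) : sn φ (c • h) i = c * sn φ h i := by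
  have hch : ∀ i, 0 < (c • h) i := fun i => mul_pos hc (hh i)
  apply le_antisymm
  · obtain ⟨x, hx, hxe⟩ := exists_sn hs hch i
    rw [← hxe]
    rw [Pg_smul φ h hc] at hx
    obtain ⟨y, hy, rfl⟩ := hx
    simp only [map_smul, smul_eq_mul]
    exact mul_le_mul_of_nonneg_left ((le_abs_self _).trans (le_sn i hy)) hc.le
  · obtain ⟨x, hx, hxe⟩ := exists_sn hs hh i
    rw [← hxe]
    have : c • x ∈ Pg φ (c • h) := by
      rw [Pg_smul φ h hc]; exact smul_mem_smul_set hx
    have h2 := le_sn i this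
    rw [map_smul, smul_eq_mul] at h2
    exact (le_abs_self _).trans h2

theorem claim4 {φ : ι → ℝ × ℝ →ₗ[ℝ] ℝ} (hs : Sep φ) {h h' : ι → ℝ} (hh : ∀ i, 0 < h i)
    (hh' : ∀ i, 0 < h' i) {q : ι → ℝ} (hq0 : ∀ i, 0 ≤ q i) (hq1 : ∑ i, q i * h i = Gg φ h)
    (hq2 : ∀ h' : ι → ℝ, (∀ i, 0 < h' i) → Gg φ h' ≤ ∑ i, q i * h' i) {i : ι} (hqi : 0 < q i) :
    ar (Pg φ h') + (sn φ h' i / h i) ^ 2 * ar (Pg φ h) ≤
      2 * (sn φ h' i / h i) * (Gg φ h * ∑ j, q j * sn φ h' j) := by
  have hsn := sn_eq_of_pos hh hq1 hq2 hqi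
  have hne : φ i ≠ 0 := by
    intro h0
    have : sn φ h i = 0 := by
      rw [sn]
      have e : (fun x => |φ i x|) '' Pg φ h = {0} := by
        ext y
        simp only [h0, mem_image, LinearMap.zero_apply, abs_zero, mem_singleton_iff]
        constructor
        · rintro ⟨x, _, rfl⟩; rfl
        · rintro rfl; exact ⟨0, zero_mem_Pg hh, rfl⟩
      rw [e]; simp
    rw [this] at hsn
    exact (hh i).ne hsn
  have hgi : 0 < sn φ h' i := sn_pos hs hh' hne
  set A := ar (Pg φ h) with hA
  set B := ar (Pg φ h') with hB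
  set G := Gg φ h with hG
  set Q := ∑ j, q j * sn φ h' j with hQ
  have hApos : 0 < A := ar_pos hs hh
  have hGsq : G ^ 2 = A := Real.sq_sqrt hApos.le
  have key : ∀ s : ℝ, 0 < s → s * (sn φ h' i * A / h i + h i * B / sn φ h' i) + s ^ 2 * B ≤
      s * (2 * G * Q) + s ^ 2 * Q ^ 2 := by
    intro s hs0
    set M := h + s • (fun j => sn φ h' j) with hM
    have hMpos : ∀ j, 0 < M j := fun j => by
      simp only [hM, Pi.add_apply, Pi.smul_apply, smul_eq_mul]
      have := sn_nonneg (φ := φ) hh' j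
      have := hh j
      positivity
    have hsh : ∀ j, 0 < (s • h') j := fun j => mul_pos hs0 (hh' j)
    have hsub : Pg φ h + Pg φ (s • h') ⊆ Pg φ M := by
      intro z hz
      obtain ⟨x, hx, y, hy, rfl⟩ := Set.mem_add.1 hz
      intro j
      rw [map_add]
      refine (abs_add_le _ _).trans (add_le_add (hx j) ?_)
      have := le_sn j hy
      rwa [sn_smul hs hh' j hs0] at this
    have hb := bonnesen_Pg hs hh hsh hne (Pg_compact hs M) hsub
    rw [hsn, sn_smul hs hh' i hs0, ar_Pg_smul φ h' hs0] at hb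
    have hG2 : ar (Pg φ M) ≤ (G + s * Q) ^ 2 := by
      have h1 := hq2 M hMpos
      have h2 : ∑ j, q j * M j = G + s * Q := by
        simp only [hM, Pi.add_apply, Pi.smul_apply, smul_eq_mul, mul_add, Finset.sum_add_distrib,
          hq1, hQ, Finset.mul_sum]
        congr 1
        exact Finset.sum_congr rfl fun j _ => by ring
      rw [h2] at h1
      have h3 : (Gg φ M) ^ 2 = ar (Pg φ M) := Real.sq_sqrt (ar_pos hs hMpos).le
      rw [← h3]
      exact pow_le_pow_left₀ (Real.sqrt_nonneg _) h1 2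
    have h4 := hb.trans hG2
    have h5 : (h i + s * sn φ h' i) * (A / h i + s ^ 2 * B / (s * sn φ h' i)) =
        A + s * (sn φ h' i * A / h i + h i * B / sn φ h' i) + s ^ 2 * B := by
      have := hh i
      field_simp
      ring
    rw [h5] at h4
    nlinarith [h4, hGsq]
  have h6 := coeff_le key
  have hhi := hh i
  have h7 : (sn φ h' i / h i) * (sn φ h' i * A / h i + h i * B / sn φ h' i) =
      B + (sn φ h' i / h i) ^ 2 * A := by
    field_simp
    ring
  rw [← h7]
  have h8 : 0 ≤ sn φ h' i / h i := by positivity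
  calc (sn φ h' i / h i) * (sn φ h' i * A / h i + h i * B / sn φ h' i)
      ≤ (sn φ h' i / h i) * (2 * G * Q) := mul_le_mul_of_nonneg_left h6 h8
    _ = _ := by ring

theorem claim5 {φ : ι → ℝ × ℝ →ₗ[ℝ] ℝ} (hs : Sep φ) {h : ι → ℝ} (hh : ∀ i, 0 < h i) :
    ∃ w : ι → ℝ, (∀ i, 0 ≤ w i) ∧ ∑ i, w i = 1 ∧ (∀ i, 0 < w i → sn φ h i = h i) ∧
      ∀ h' : ι → ℝ, (∀ i, 0 < h' i) →
        ar (Pg φ h') ≤ ar (Pg φ h) * (2 * (∑ i, w i * (sn φ h' i / h i)) ^ 2 -
          ∑ i, w i * (sn φ h' i / h i) ^ 2) := by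
  obtain ⟨q, hq0, hq1, hq2⟩ := exists_supergradient hs hh
  have hG := Gg_pos hs hh
  have hApos : 0 < ar (Pg φ h) := ar_pos hs hh
  have hGsq : (Gg φ h) ^ 2 = ar (Pg φ h) := Real.sq_sqrt hApos.le
  refine ⟨fun i => q i * h i / Gg φ h, fun i => ?_, ?_, ?_, ?_⟩
  · have := hq0 i
    have := hh i
    positivity
  · rw [← Finset.sum_div, hq1, div_self hG.ne']
  · intro i hi
    refine sn_eq_of_pos hh hq1 hq2 ?_
    rcases (hq0 i).lt_or_eq with h1 | h1
    · exact h1
    · simp [← h1] at hi
  · intro h' hh'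
    set B := ar (Pg φ h') with hB
    set A := ar (Pg φ h) with hA
    set G := Gg φ h with hGdef
    set t : ι → ℝ := fun i => sn φ h' i / h i with ht
    set w : ι → ℝ := fun i => q i * h i / G with hw
    have hwsum : ∑ i, w i = 1 := by
      simp only [hw]; rw [← Finset.sum_div, hq1, div_self hG.ne']
    have hQ : ∑ j, q j * sn φ h' j = G * ∑ j, w j * t j := by
      rw [Finset.mul_sum]
      refine Finset.sum_congr rfl fun j _ => ?_
      simp only [hw, ht]
      have := hh j
      field_simp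
    have hterm : ∀ i, w i * B ≤ w i * (A * (2 * t i * (∑ j, w j * t j) - t i ^ 2)) := by
      intro i
      rcases (hq0 i).lt_or_eq with h1 | h1
      · have h4 := claim4 hs hh hh' hq0 hq1 hq2 h1
        rw [hQ] at h4
        have hw0 : 0 ≤ w i := by
          have := hh i
          simp only [hw]; positivity
        refine mul_le_mul_of_nonneg_left ?_ hw0
        have h5 : G * (G * ∑ j, w j * t j) = A * ∑ j, w j * t j := by
          rw [← mul_assoc, ← sq, hGsq]
        rw [← hGdef, h5] at h4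
        simp only [ht] at h4 ⊢
        linarith
      · have : w i = 0 := by simp [hw, ← h1]
        rw [this]; simp
    have hsum := Finset.sum_le_sum fun i (_ : i ∈ Finset.univ) => hterm i
    rw [← Finset.sum_mul, hwsum, one_mul] at hsum
    refine hsum.trans (le_of_eq ?_)
    have : ∀ i, w i * (A * (2 * t i * (∑ j, w j * t j) - t i ^ 2)) =
        A * (2 * (∑ j, w j * t j) * (w i * t i) - w i * t i ^ 2) := fun i => by ring
    simp only [this]
    rw [← Finset.mul_sum, Finset.sum_sub_distrib, ← Finset.mul_sum]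
    ring

end Vale.Agent.P227
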