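import Vale.Agent.P227.Planar4
import Vale.Agent.P227.Calc

open MeasureTheory Set Pointwise
open scoped ENNReal

namespace Vale.Agent.P227

variable {ι : Type} [Fintype ι]

theorem claim6 {φ : ι → ℝ × ℝ →ₗ[ℝ] ℝ} (hs : Sep φ) {h : ι → ℝ} (hh : ∀ i, 0 < h i) :
    ∃ w : ι → ℝ, ∀ (x : ι → ℝ) (η : ℝ), 0 ≤ η → η ≤ 1 / 4 → (∀ i, |x i| ≤ η) →
      ar (Pg φ fun i => h i * Real.exp (x i)) ≤
        ar (Pg φ h) * Real.exp (2 * ∑ i, w i * x i + 18 * η ^ 3) := by
  obtain ⟨w, hw0, hw1, hw2, hw3⟩ := claim5 hs hh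
  refine ⟨w, fun x η hη0 hη hx => ?_⟩
  set h' : ι → ℝ := fun i => h i * Real.exp (x i) with hh'
  have hpos : ∀ i, 0 < h' i := fun i => mul_pos (hh i) (Real.exp_pos _)
  refine (hw3 h' hpos).trans (mul_le_mul_of_nonneg_left ?_ (ar_pos hs hh).le)
  refine le_trans ?_ (calc7 hw0 hw1 hη0 hη hx)
  refine mono7 (l := Real.exp (-η)) (u := Real.exp η) hw0 hw1 ?_ ?_
  · have h1 : Real.exp η = Real.exp (-η) * Real.exp (2 * η) := by
      rw [← Real.exp_add]; ring_nf
    have h2 : Real.exp (2 * η) ≤ 2 := by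
      have h3 := Real.exp_bound' (x := 2 * η) (by linarith) (by linarith) (n := 2) (by norm_num)
      simp only [Finset.sum_range_succ, Finset.sum_range_zero, Nat.factorial] at h3
      norm_num at h3
      nlinarith
    rw [h1]
    nlinarith [Real.exp_pos (-η)]
  · intro i hi
    have hsn := hw2 i hi
    refine ⟨?_, ?_, ?_⟩
    · rw [le_div_iff₀ (hh i)]
      have hle : ∀ j, (Real.exp (-η) • h) j ≤ h' j := by
        intro j
        simp only [Pi.smul_apply, smul_eq_mul, hh']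
        rw [mul_comm]
        refine mul_le_mul_of_nonneg_left (Real.exp_le_exp.2 ?_) (hh j).le
        linarith [(abs_le.1 (hx j)).1]
      have h1 := sn_smul hs hh i (Real.exp_pos (-η))
      rw [hsn] at h1
      rw [← h1]
      have hch : ∀ i, 0 < (Real.exp (-η) • h) i := fun i => mul_pos (Real.exp_pos _) (hh i)
      obtain ⟨y, hy, hye⟩ := exists_sn hs hch i
      rw [← hye]
      exact (le_abs_self _).trans (le_sn i (Pg_mono φ hle hy))
    · rw [div_le_iff₀ (hh i), mul_comm]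
      exact sn_le hpos i
    · exact Real.exp_le_exp.2 ((le_abs_self _).trans (hx i))

theorem planar_Pg {φ : ι → ℝ × ℝ →ₗ[ℝ] ℝ} (hs : Sep φ) {h0 h1 : ι → ℝ} (hh0 : ∀ i, 0 < h0 i)
    (hh1 : ∀ i, 0 < h1 i) {lam : ℝ} (hl0 : 0 ≤ lam) (hl1 : lam ≤ 1) :
    ar (Pg φ h0) ^ (1 - lam) * ar (Pg φ h1) ^ lam ≤
      ar (Pg φ fun i => h0 i ^ (1 - lam) * h1 i ^ lam) := by
  set v : ι → ℝ := fun i => Real.log (h1 i) - Real.log (h0 i) with hv
  set H : ℝ → ι → ℝ := fun τ i => Real.exp (Real.log (h0 i) + τ * v i) with hH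
  have hHpos : ∀ τ i, 0 < H τ i := fun τ i => Real.exp_pos _
  set f : ℝ → ℝ := fun τ => Real.log (ar (Pg φ (H τ))) with hf
  set V : ℝ := 1 + ∑ i, |v i| with hV
  have hVpos : 0 < V := by
    have : 0 ≤ ∑ i, |v i| := Finset.sum_nonneg fun i _ => abs_nonneg _
    linarith
  have hvV : ∀ i, |v i| ≤ V := fun i => by
    have := Finset.single_le_sum (f := fun j => |v j|) (fun j _ => abs_nonneg _) (Finset.mem_univ i)
    linarith
  have hshift : ∀ τ σ, H σ = fun i => H τ i * Real.exp ((σ - τ) * v i) := by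
    intro τ σ
    funext i
    simp only [hH]
    rw [← Real.exp_add]
    ring_nf
  have hlip1 : ∀ τ σ, f σ ≤ f τ + 2 * V * |σ - τ| := by
    intro τ σ
    have hle : ∀ i, H σ i ≤ (Real.exp (V * |σ - τ|) • H τ) i := by
      intro i
      rw [hshift τ σ]
      simp only [Pi.smul_apply, smul_eq_mul]
      rw [mul_comm]
      refine mul_le_mul_of_nonneg_right (Real.exp_le_exp.2 ?_) (hHpos τ i).le
      calc (σ - τ) * v i ≤ |(σ - τ) * v i| := le_abs_self _
        _ = |v i| * |σ - τ| := by rw [abs_mul, mul_comm]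
        _ ≤ V * |σ - τ| := mul_le_mul_of_nonneg_right (hvV i) (abs_nonneg _)
    have h2 := ar_mono hs hle
    rw [ar_Pg_smul φ (H τ) (Real.exp_pos _)] at h2
    have h3 := Real.log_le_log (ar_pos hs (hHpos σ)) h2
    rw [Real.log_mul (by positivity) (ar_pos hs (hHpos τ)).ne', Real.log_pow, Real.log_exp] at h3
    simp only [hf]
    push_cast at h3
    linarith
  have hcont : Continuous f := by
    have : LipschitzWith (Real.toNNReal (2 * V)) f := by
      refine LipschitzWith.of_dist_le_mul fun σ τ => ?_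
      rw [Real.dist_eq, Real.dist_eq, Real.coe_toNNReal _ (by positivity), abs_le]
      constructor
      · have := hlip1 σ τ
        rw [abs_sub_comm] at this
        linarith
      · have := hlip1 τ σ
        linarith
    exact this.continuous
  have hex : ∀ τ : ℝ, ∃ c : ℝ, ∀ σ : ℝ, |σ - τ| ≤ 1 / (4 * V) →
      f σ ≤ f τ + c * (σ - τ) + (18 * V ^ 3) * |σ - τ| ^ 3 := by
    intro τ
    obtain ⟨w, hw⟩ := claim6 hs (hHpos τ)
    refine ⟨2 * ∑ i, w i * v i, fun σ hσ => ?_⟩
    have hη : V * |σ - τ| ≤ 1 / 4 := by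
      calc V * |σ - τ| ≤ V * (1 / (4 * V)) := mul_le_mul_of_nonneg_left hσ hVpos.le
        _ = 1 / 4 := by field_simp
    have h2 := hw (fun i => (σ - τ) * v i) (V * |σ - τ|) (by positivity) hη (fun i => by
      rw [abs_mul, mul_comm]
      exact mul_le_mul_of_nonneg_right (hvV i) (abs_nonneg _))
    rw [← hshift τ σ] at h2
    have h3 := Real.log_le_log (ar_pos hs (hHpos σ)) h2
    rw [Real.log_mul (ar_pos hs (hHpos τ)).ne' (Real.exp_pos _).ne', Real.log_exp] at h3
    simp only [hf]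
    have h4 : ∑ i, w i * ((σ - τ) * v i) = (∑ i, w i * v i) * (σ - τ) := by
      rw [Finset.sum_mul]
      exact Finset.sum_congr rfl fun i _ => by ring
    rw [h4] at h3
    have h5 : (V * |σ - τ|) ^ 3 = V ^ 3 * |σ - τ| ^ 3 := by ring
    rw [h5] at h3
    linarith
  choose c hc using hex
  have hconc := concave_of_cubic (f := f) (c := c) (C := 18 * V ^ 3) (δ := 1 / (4 * V))
    (by positivity) hcont (fun τ σ hστ => hc τ σ hστ) hl0 hl1
  have e0 : H 0 = h0 := by
    funext i; simp [hH, Real.exp_log (hh0 i)]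
  have e1 : H 1 = h1 := by
    funext i; simp [hH, hv, Real.exp_log (hh1 i)]
  have el : H lam = fun i => h0 i ^ (1 - lam) * h1 i ^ lam := by
    funext i
    simp only [hH, hv]
    rw [Real.rpow_def_of_pos (hh0 i), Real.rpow_def_of_pos (hh1 i), ← Real.exp_add]
    ring_nf
  rw [← el]
  have p0 := ar_pos hs hh0
  have p1 := ar_pos hs hh1
  have pl := ar_pos hs (hHpos lam)
  rw [Real.rpow_def_of_pos p0, Real.rpow_def_of_pos p1, ← Real.exp_add,
    ← Real.exp_log pl]
  apply Real.exp_le_exp.2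
  simp only [hf, e0, e1] at hconc
  linarith

end Vale.Agent.P227
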